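import Vale.Agent.P315.RAM.Main
import Vale.Agent.P315.H817.AdCell
import Vale.Agent.P315.H873.Glue3

/-!
# The one-pass algorithm over the cells in antidiagonal time

`main_solves`: a strategy and parameters with pure properties give a program with `Top.Solves`.
-/

set_option autoImplicit false

namespace Vale.Agent.P315.RAM

open Vale.Agent.Lib.PolyTime (PT Enc esize)
open Vale.Agent.P315.H817 (adCell adAns adCell_spec adCell_wr adCell_wa length_adAns adAns_le)

/-- Parameters as functions of the two lengths: `m` bits of the numbers, `N` seeds, which are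
residues mod `e`, `Q` rounds, rows of length `l`, mesh `mu`, `mc` mesh steps in a row, `D` the base
of the codes of the cells; `pre` = the first part of the feed. -/
structure AdF where
  m : ℕ × ℕ → ℕ
  N : ℕ × ℕ → ℕ
  e : ℕ × ℕ → ℕ
  Q : ℕ × ℕ → ℕ
  l : ℕ × ℕ → ℕ
  mu : ℕ × ℕ → ℕ
  mc : ℕ × ℕ → ℕ
  D : ℕ × ℕ → ℕ
  pre : List (ℕ × ℕ → ℕ)
  pt_m : PT ∅ m
  pt_N : PT ∅ N
  pt_e : PT ∅ e
  pt_Q : PT ∅ Q
  pt_l : PT ∅ l
  pt_mu : PT ∅ mu
  pt_mc : PT ∅ mc
  pt_D : PT ∅ D
  pt_pre : ∀ g ∈ pre, PT ∅ g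
  len : pre.length ≤ 20

/-- The registers with the first part of the feed. -/
def AdF.preRegs (F : AdF) : List (ℕ × (ℕ × ℕ → ℕ)) :=
  (List.range F.pre.length).map fun i => (80 + i, F.pre.getD i fun _ => 0)

theorem AdF.getD_mem (F : AdF) {i : ℕ} (hi : i < F.pre.length) :
    F.pre.getD i (fun _ => 0) ∈ F.pre := by
  rw [List.getD_eq_getElem?_getD, List.getElem?_eq_getElem hi]
  exact List.getElem_mem hi

/-- The general form of the parameters. -/
def AdF.toParF (F : AdF) : ParF where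
  m := F.m
  N := F.N
  e := F.e
  Q := F.Q
  regs := (50, F.l) :: (51, F.mu) :: (52, F.mc) :: (53, F.D) :: F.preRegs
  pre := F.preRegs
  pt_m := F.pt_m
  pt_N := F.pt_N
  pt_e := F.pt_e
  pt_Q := F.pt_Q
  pt_regs := by
    intro g hg
    simp only [List.mem_cons, AdF.preRegs, List.mem_map, List.mem_range] at hg
    rcases hg with rfl | rfl | rfl | rfl | ⟨i, hi, rfl⟩
    · exact F.pt_l
    · exact F.pt_mu
    · exact F.pt_mc
    · exact F.pt_D
    · exact F.pt_pre _ (F.getD_mem hi)
  pre_mem := by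
    intro g hg
    simp [hg]
  nodup := by
    have h1 : (F.preRegs.map Prod.fst).Nodup := by
      unfold AdF.preRegs
      rw [List.map_map]
      refine List.Nodup.map_on ?_ List.nodup_range
      intro i _ j _ h
      simp only [Function.comp_apply] at h
      omega
    have h2 : ∀ i ∈ F.preRegs.map Prod.fst, 80 ≤ i := by
      intro i hi
      simp only [AdF.preRegs, List.map_map, List.mem_map, List.mem_range,
        Function.comp_apply] at hi
      obtain ⟨j, -, rfl⟩ := hi
      omega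
    simp only [List.map_cons, List.nodup_cons, List.mem_cons, not_or]
    refine ⟨⟨by decide, by decide, by decide, fun h => ?_⟩, ⟨by decide, by decide, fun h => ?_⟩,
      ⟨by decide, fun h => ?_⟩, fun h => ?_, h1⟩ <;> have := h2 _ h <;> omega
  place := by
    intro i hi
    simp only [List.map_cons, List.mem_cons, AdF.preRegs, List.map_map, List.mem_map,
      List.mem_range, Function.comp_apply] at hi
    have := F.len
    rcases hi with rfl | rfl | rfl | rfl | ⟨j, hj, rfl⟩
    · omega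
    · omega
    · omega
    · omega
    · omega

theorem AdF.pfx_eq (F : AdF) (p : ℕ × ℕ) :
    F.toParF.pfx p = F.pre.map fun g => g p := by
  show F.preRegs.map (fun g => g.2 p) = _
  unfold AdF.preRegs
  rw [List.map_map]
  apply List.ext_getElem
  · simp
  · intro i h1 h2
    simp only [List.length_map, List.length_range] at h1
    simp [List.getD_eq_getElem?_getD, List.getElem?_eq_getElem h1]

theorem AdF.pre_length (F : AdF) : F.toParF.pre.length = F.pre.length := by
  show F.preRegs.length = _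
  simp [AdF.preRegs]

theorem AdF.cellOk (F : AdF) : CellOk F.toParF (adCell 60 191) := by
  refine ⟨fun i hi => ⟨fun h => ?_, ?_⟩, fun j hj => ?_⟩
  · have h1 := adCell_wr i hi
    have h2 : i = 50 ∨ i = 51 ∨ i = 52 ∨ i = 53 ∨ 80 ≤ i := by
      simp only [AdF.toParF, List.map_cons, List.mem_cons, AdF.preRegs, List.map_map,
        List.mem_map, List.mem_range, Function.comp_apply] at h
      rcases h with h | h | h | h | ⟨j, -, h⟩ <;> omega
    omega
  · have h1 := adCell_wr i hi
    omega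
  · have h1 := adCell_wa j hj
    omega

/-- The answers to the queries. -/
def AdF.ans (F : AdF) (x y : List ℕ) : ℕ → List ℕ :=
  adAns (fun i => x.getD i 0) (fun i => y.getD i 0) (F.l (len2 x y)) (F.mu (len2 x y))
    (F.mc (len2 x y)) (F.D (len2 x y))

/-- Time for a cell. -/
def adTime (l mu mc : ℕ) : ℕ :=
  30 + mc * (60 + ((l + 1) * 14 + (mc + 1) * (14 + mu * (68 + l * 122))))

/-- The conditions on the parameters; the codes of the cells are below `Vb`, sizes of states at
most `S`, everything at most `R`. -/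
structure AdF.Fits (F : AdF) (x y : List ℕ) (S Vb R : ℕ) : Prop where
  hx : x.length < 2 ^ F.m (len2 x y)
  hy : y.length < 2 ^ F.m (len2 x y)
  hl : F.l (len2 x y) < 2 ^ F.m (len2 x y)
  hpre : ∀ g ∈ F.pre, g (len2 x y) < 2 ^ F.m (len2 x y)
  e0 : 0 < F.e (len2 x y)
  e1 : F.e (len2 x y) ≤ 2 ^ F.m (len2 x y)
  grid : F.mc (len2 x y) * F.mu (len2 x y) ≤ F.l (len2 x y)
  lin : 10 * (x.length + y.length + 10) ≤ R
  sm : 4 * F.m (len2 x y) + 10 ≤ R
  sN : (F.pre.length + F.N (len2 x y)) * (2 * F.m (len2 x y) + 1) + S +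
    2 * F.m (len2 x y) + 10 ≤ R
  se : F.e (len2 x y) ≤ R
  sQ : F.Q (len2 x y) ≤ R
  sV : (Vb + 1) * (F.l (len2 x y) + 1) ≤ R
  sl : F.l (len2 x y) + F.mu (len2 x y) + 1 ≤ R
  smc : (F.mc (len2 x y) + 1) * (F.mc (len2 x y) + 1) ≤ R
  sD : F.D (len2 x y) ≤ R
  sp : ∀ g ∈ F.pre, g (len2 x y) ≤ R

/-- The conditions on the run of a strategy with a given feed. -/
structure Strat.RunOk {α : Type} [Enc α] (St : Strat α) (ans : ℕ → List ℕ) (Q : ℕ)
    (feed : List ℕ) (S Vb R : ℕ) : Prop where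
  ask : ∀ t, t < Q → St.ask (St.state ans feed t) < Vb
  size : ∀ t, t < Q → ∀ j ≤ (ans (St.ask (St.state ans feed t))).length,
    esize (absorb St.upd ((ans (St.ask (St.state ans feed t))).take j)
      (St.state ans feed t)) ≤ S
  sizeQ : esize (St.state ans feed Q) ≤ S
  out : St.fin ans Q feed ≤ R

theorem AdF.runOk {α : Type} [Enc α] {St : Strat α} {F : AdF} {E : Env} {x y : List ℕ}
    {S Vb R : ℕ} (hF : F.Fits x y S Vb R) (hR : R ≤ E.R)
    (hSt : St.RunOk (F.ans x y) (F.Q (len2 x y)) (F.toParF.feed x y E.ρ) S Vb R) :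
    RunOk St F.toParF (adCell 60 191) E x y (F.ans x y) S
      (F.mc (len2 x y) * (F.mc (len2 x y) + 1))
      (adTime (F.l (len2 x y)) (F.mu (len2 x y)) (F.mc (len2 x y))) (fun q => q < Vb) := by
  have hmem : ∀ g ∈ F.preRegs, g.2 ∈ F.pre := by
    intro g hg
    simp only [AdF.preRegs, List.mem_map, List.mem_range] at hg
    obtain ⟨i, hi, rfl⟩ := hg
    exact F.getD_mem hi
  have hVl : ∀ q, q < Vb → q + 1 ≤ E.R ∧ q / F.D (len2 x y) * F.l (len2 x y) ≤ E.R ∧
      q % F.D (len2 x y) * F.l (len2 x y) + F.l (len2 x y) ≤ E.R := by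
    intro q hq
    have h1 := hF.sV
    have h2 : (q + 1) * (F.l (len2 x y) + 1) ≤ (Vb + 1) * (F.l (len2 x y) + 1) :=
      Nat.mul_le_mul_right _ (by omega)
    have h3 : q / F.D (len2 x y) * F.l (len2 x y) ≤ q * F.l (len2 x y) :=
      Nat.mul_le_mul_right _ (Nat.div_le_self _ _)
    have h4 : q % F.D (len2 x y) * F.l (len2 x y) ≤ q * F.l (len2 x y) :=
      Nat.mul_le_mul_right _ (Nat.mod_le _ _)
    have h5 : (q + 1) * (F.l (len2 x y) + 1) = q * F.l (len2 x y) + F.l (len2 x y) + q + 1 := by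
      ring
    omega
  refine ⟨?_, ?_, hF.hx, hF.hy, ?_, hF.e0, hF.e1, hSt.ask, hSt.size, hSt.sizeQ,
    hSt.out.trans hR, ?_, ?_, hF.se.trans hR, hF.sQ.trans hR, ?_, hF.lin.trans hR⟩
  · intro σ q hpre h60 hq
    obtain ⟨h1, h2, h3⟩ := hVl q hq
    have hsl := hF.sl
    refine Spec.mono (adCell_spec (z := 60) (A := 191) (by norm_num) (by norm_num) hpre.a0
      hpre.a1 h60 (hpre.regs (50, F.l) (by simp [AdF.toParF]))
      (hpre.regs (51, F.mu) (by simp [AdF.toParF])) (hpre.regs (52, F.mc) (by simp [AdF.toParF]))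
      (hpre.regs (53, F.D) (by simp [AdF.toParF])) hF.grid (by simp only; omega)
      (by simp only; omega) (hF.smc.trans hR) h2 h3) le_rfl ?_
    intro σ' h
    exact h
  · intro q hq
    refine ⟨by have := (hVl q hq).1; omega, by simp [AdF.ans, length_adAns], fun v hv => ?_⟩
    exact lt_of_le_of_lt (adAns_le _ _ hF.grid hv) hF.hl
  · intro v hv
    rw [F.pfx_eq] at hv
    obtain ⟨g, hg, rfl⟩ := List.mem_map.mp hv
    exact hF.hpre g hg
  · have := hF.sm
    show F.m (len2 x y) ≤ E.R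
    omega
  · rw [F.pre_length]
    have h1 := hF.sN
    have h2 : F.pre.length + F.N (len2 x y) ≤
        (F.pre.length + F.N (len2 x y)) * (2 * F.m (len2 x y) + 1) :=
      Nat.le_mul_of_pos_right _ (by omega)
    show F.pre.length + F.N (len2 x y) ≤ E.R
    omega
  · intro g hg
    simp only [AdF.toParF, List.mem_cons] at hg
    have h1 := hF.sl
    have h2 := hF.smc
    have h3 := hF.sD
    have h4 : F.mc (len2 x y) ≤ (F.mc (len2 x y) + 1) * (F.mc (len2 x y) + 1) := by nlinarith
    rcases hg with rfl | rfl | rfl | rfl | hg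
    · show F.l (len2 x y) ≤ E.R
      omega
    · show F.mu (len2 x y) ≤ E.R
      omega
    · show F.mc (len2 x y) ≤ E.R
      omega
    · show F.D (len2 x y) ≤ E.R
      omega
    · exact (hF.sp _ (hmem g hg)).trans hR

/-- The number of steps of the main program. -/
def AdF.cost (F : AdF) (k₁ k₂ : ℕ) (x y : List ℕ) (S : ℕ) : ℕ :=
  mainCost k₁ k₂ (x.length + y.length) (F.m (len2 x y)) (F.pre.length + F.N (len2 x y))
    (F.Q (len2 x y)) S (F.mc (len2 x y) * (F.mc (len2 x y) + 1))
    (adTime (F.l (len2 x y)) (F.mu (len2 x y)) (F.mc (len2 x y)))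

/-- The first part of the feed. -/
def AdF.pfx (F : AdF) (x y : List ℕ) : List ℕ := F.pre.map fun g => g (len2 x y)

/-- The main theorem of the RAM part: a strategy (whose exponent `k₂` does not depend on the
parameters) and parameters with pure properties give a program. -/
theorem main_solves {α : Type} [Enc α] (St : Strat α) : ∃ k₂ : ℕ, ∀ (F : AdF) (n0 c1 : ℕ)
    (S Vb : List ℕ → List ℕ → ℕ), 1 ≤ n0 →
    (∀ x y : List ℕ, n0 ≤ max x.length y.length →
      F.Fits x y (S x y) (Vb x y) ((max x.length y.length + 2) ^ c1)) →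
    (∀ x y : List ℕ, n0 ≤ max x.length y.length → ∃ j, F.e (len2 x y) = 2 ^ j) →
    (∀ x y : List ℕ, n0 ≤ max x.length y.length → ∀ cs : List ℕ,
      cs.length = F.N (len2 x y) → (∀ v ∈ cs, v < F.e (len2 x y)) →
      St.RunOk (F.ans x y) (F.Q (len2 x y)) (F.pfx x y ++ cs) (S x y) (Vb x y)
        ((max x.length y.length + 2) ^ c1)) →
    ∃ k₁ : ℕ, ∀ (good : List ℕ → List ℕ → ℕ → Prop) (t : ℕ → ℝ),
      (∀ x y : List ℕ, n0 ≤ max x.length y.length →
        ((F.cost k₁ k₂ x y (S x y) + 8 : ℕ) : ℝ) ≤ t (max x.length y.length)) →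
      (∀ n : ℕ, n < n0 → ((360 * ((n0 + 1) * (2 * n0 + 1)) + 10 : ℕ) : ℝ) ≤ t n) →
      (∀ x y : List ℕ, good x y (ED x y)) →
      (∀ x y : List ℕ, n0 ≤ max x.length y.length →
        2 * Nat.card (Fin (F.N (len2 x y)) → Fin (F.e (len2 x y))) ≤
          3 * Nat.card {c : Fin (F.N (len2 x y)) → Fin (F.e (len2 x y)) //
            good x y (St.fin (F.ans x y) (F.Q (len2 x y)) (H873.feedP (F.pfx x y) c))}) →
      ∃ (P : Prog) (k : ℕ), Top.Solves P good t k := by
  obtain ⟨k₂, hk₂⟩ := main_prog St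
  refine ⟨k₂, fun F n0 c1 S Vb hn0 hFits he2 hrun => ?_⟩
  obtain ⟨Big, k₁, hBig⟩ := hk₂ F.toParF (adCell 60 191) F.cellOk
  refine ⟨k₁, fun good t ht ht0 hgood0 hgood => ?_⟩
  set c0 := c1 * (k₁ + k₂ + 1) + (2 * n0 + 1) with hc0
  have h1 : 2 * n0 + 1 ≤ 2 ^ c0 :=
    (Nat.lt_two_pow_self (n := 2 * n0 + 1)).le.trans (Nat.pow_le_pow_right (by norm_num) (by omega))
  have hpow : ∀ n k, k ≤ k₁ + k₂ + 1 → ((n + 2) ^ c1) ^ k ≤ (n + 2) ^ c0 := by
    intro n k hk
    rw [← pow_mul]
    refine Nat.pow_le_pow_right (by omega) ?_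
    have := Nat.mul_le_mul_left c1 hk
    omega
  refine ⟨_, _, H873.solves_split3 (Big := Big) (good := good) (t := t) (n0 := n0) (c0 := c0)
    (S := 100) hn0 h1 le_rfl (fun x y => F.cost k₁ k₂ x y (S x y)) (fun x y => F.N (len2 x y))
    (fun x y => F.e (len2 x y)) (fun x y => F.pfx x y)
    (fun x y l => St.fin (F.ans x y) (F.Q (len2 x y)) l) ?_ ht ht0 ?_ hgood0 hgood⟩
  · intro x y E hn hR _
    have hF := hFits x y hn
    have hfeed : F.toParF.feed x y E.ρ =
        F.pfx x y ++ (List.range (F.N (len2 x y))).map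
          (fun i => E.ρ (0 + i) % F.e (len2 x y)) := by
      unfold ParF.feed H873.feedG
      rw [F.pfx_eq]
      rfl
    have hRR : (max x.length y.length + 2) ^ c1 ≤ E.R := by
      rw [hR]
      have := hpow (max x.length y.length) 1 (by omega)
      rwa [pow_one] at this
    have hrun' : St.RunOk (F.ans x y) (F.Q (len2 x y)) (F.toParF.feed x y E.ρ) (S x y) (Vb x y)
        ((max x.length y.length + 2) ^ c1) := by
      rw [hfeed]
      refine hrun x y hn _ (by simp) ?_
      intro v hv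
      obtain ⟨i, -, rfl⟩ := List.mem_map.mp hv
      exact Nat.mod_lt _ hF.e0
    have hsp := hBig E x y (F.ans x y) (S x y) _ _ _ (AdF.runOk hF hRR hrun') ?_ ?_
    · rw [F.pre_length] at hsp
      refine hsp.mono le_rfl ?_
      rintro s' ⟨h1, h2⟩
      refine ⟨h1, ?_⟩
      rw [h2]
      show St.fin (F.ans x y) (F.Q (len2 x y)) (F.toParF.feed x y E.ρ) = _
      rw [hfeed]
      rfl
    · refine (Nat.pow_le_pow_left hF.sm k₁).trans ?_
      rw [hR]
      exact hpow _ _ (by omega)
    · rw [F.pre_length]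
      refine (Nat.pow_le_pow_left hF.sN k₂).trans ?_
      rw [hR]
      exact hpow _ _ (by omega)
  · intro x y hn
    obtain ⟨j, hj⟩ := he2 x y hn
    refine ⟨j, hj, ?_⟩
    rw [← hj]
    refine (hFits x y hn).se.trans (Nat.pow_le_pow_right (by omega) ?_)
    have h2 : c1 * 1 ≤ c1 * (k₁ + k₂ + 1) := Nat.mul_le_mul_left _ (by omega)
    omega

end Vale.Agent.P315.RAM
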