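import Vale.Agent.P315.RAM.Mem

/-!
# The oracle loop on the word RAM

A strategy is given by two polynomial time functions: `ask : α → ℕ` (the next query) and
`upd : ℕ × α → α` (absorb one number of the answer). The queries are answered by a given program
`Cell`. `exists_oracle`: there is a program which runs `Q` rounds.
-/

set_option autoImplicit false

namespace Vale.Agent.P315.RAM

open Vale.Agent.Lib.PolyTime (Word pb pr FP PT Enc enc esize)

variable {E : Env}

section
variable {α : Type*}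

/-- Absorb a list of numbers. -/
def absorb (upd : ℕ × α → α) (l : List ℕ) (a : α) : α := l.foldl (fun b v => upd (v, b)) a

/-- One round: ask, and absorb the answer. -/
def oround (ask : α → ℕ) (upd : ℕ × α → α) (ans : ℕ → List ℕ) (a : α) : α :=
  absorb upd (ans (ask a)) a

theorem absorb_take_succ (upd : ℕ × α → α) (l : List ℕ) (a : α) {t : ℕ} (ht : t < l.length) :
    absorb upd (l.take (t + 1)) a = upd (l.getD t 0, absorb upd (l.take t) a) := by
  unfold absorb
  rw [List.take_succ_eq_append_getElem ht, List.foldl_append, List.getD_eq_getElem?_getD,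
    List.getElem?_eq_getElem ht]
  rfl

end

/-- The registers in which the oracle loop works (apart from those of the answering program). -/
def OReg (L : Lay) (z W i : ℕ) : Prop :=
  i = z ∨ (z + 2 ≤ i ∧ i ≤ z + 6) ∨ i = L.c ∨ i = L.B ∨ (L.r ≤ i ∧ i ≤ L.r + W)

/-- The arrays in which the oracle loop works (apart from those of the answering program). -/
def OArr (L : Lay) (y W i : ℕ) : Prop := i = y ∨ (L.a ≤ i ∧ i ≤ L.a + W)

/-- The property is not changed by changes in the working area. -/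
def Stable (L : Lay) (z y W : ℕ) (Inv : State → Prop) : Prop :=
  ∀ σ σ' : State, (∀ i, ¬ OReg L z W i → σ'.reg i = σ.reg i) →
    (∀ j, ¬ OArr L y W j → σ'.arr j = σ.arr j) → Inv σ → Inv σ'

theorem Stable.frame {L : Lay} {z y W : ℕ} {Inv : State → Prop} (h : Stable L z y W Inv)
    {σ σ' : State} {wr wa : List ℕ} (hf : Frame σ σ' wr wa) (hr : ∀ i ∈ wr, OReg L z W i)
    (ha : ∀ j ∈ wa, OArr L y W j) (hi : Inv σ) : Inv σ' :=
  h σ σ' (fun i hi => hf.reg i fun h => hi (hr i h)) (fun j hj => hf.arr j fun h => hj (ha j h)) hi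

/-- Absorb the numbers in array `A` (their number is in register `z + 7`) with the program `U`
for the update. -/
def absorbProg (L : Lay) (z y A : ℕ) (U : Prog) : Prog :=
  .loop (z + 6) (.reg (z + 7)) (.seq (.set z (.get A (.reg (z + 6))))
    (.seq (pushNat z y L.a L.r) U))

theorem pushNat_wr {z y j k : ℕ} : ∀ i ∈ (pushNat z y j k).wr, i = k ∨ (z + 2 ≤ i ∧ i ≤ z + 4) := by
  intro i hi
  simp [pushNat, splitBits, pushBits, Prog.wr] at hi
  omega

theorem pushNat_wa {z y j k : ℕ} : ∀ i ∈ (pushNat z y j k).wa, i = y ∨ i = j := by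
  intro i hi
  simp [pushNat, splitBits, pushBits, Prog.wa] at hi
  omega

/-- The assumptions on the places of registers and arrays. -/
structure Places (L : Lay) (z y A W : ℕ) : Prop where
  ok : L.Ok
  z1 : z + 8 < L.B
  z2 : z + 8 < L.c
  y2 : 2 ≤ y
  ya : y < L.a ∨ L.a + W < y
  A2 : 2 ≤ A
  Aa : A < L.a ∨ L.a + W < A
  Ay : A ≠ y

theorem Places.z3 {L : Lay} {z y A W : ℕ} (h : Places L z y A W) : z + 8 < L.r := by
  have := h.z1
  have := h.ok.B
  omega

section
variable {α : Type*} [Enc α]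

theorem absorb_spec {upd : ℕ × α → α} (hupd : PT ∅ upd) :
    ∃ (W k : ℕ) (U : Lay → Prog), (∀ L, Small (U L) L W) ∧
      ∀ (W' : ℕ), W ≤ W' → ∀ (L : Lay) (z y A : ℕ), Places L z y A W' → ∀ (E : Env)
        (Inv : State → Prop), Stable L z y W' Inv → ∀ (m S : ℕ) (l : List ℕ) (a : α) (σ : State),
        (∀ σ, Inv σ → σ.reg (z + 1) = m) → (∀ v ∈ l, v < 2 ^ m) →
        (∀ j ≤ l.length, esize (absorb upd (l.take j) a) ≤ S) →
        (S + 2 * m + 10) ^ k ≤ E.R → Inv σ → Mem σ L a → σ.reg (z + 7) = l.length →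
        (∀ i, i < l.length → σ.arr A i = l.getD i 0) →
        Spec E σ (absorbProg L z y A (U L)) (2 + l.length * (S + 2 * m + 10) ^ k)
          (fun σ' => Mem σ' L (absorb upd l a) ∧ Inv σ') := by
  obtain ⟨W, k, U, hU, hUs⟩ := exists_apply hupd
  refine ⟨W, k + 3, U, hU, ?_⟩
  intro W' hW L z y A hPl E Inv hSt m S l a σ hm hl hS hR hInv hMem h7 hA
  have hz3 := hPl.z3
  have hB := hPl.z1
  have hc := hPl.z2
  have hBr := hPl.ok.B
  have hcr := hPl.ok.c
  have hX : S + 2 * m + 10 ≤ (S + 2 * m + 10) ^ (k + 3) := by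
    calc S + 2 * m + 10 = (S + 2 * m + 10) ^ 1 := (pow_one _).symm
      _ ≤ _ := Nat.pow_le_pow_right (by omega) (by omega)
  have hXk : (S + 2 * m + 10) ^ k ≤ (S + 2 * m + 10) ^ (k + 3) :=
    Nat.pow_le_pow_right (by omega) (by omega)
  have hcost : 3 + (41 * m + 20 + (2 * m + S + 3) ^ k) + 2 ≤ (S + 2 * m + 10) ^ (k + 3) := by
    have h1 : (2 * m + S + 3) ^ k ≤ (S + 2 * m + 10) ^ k := Nat.pow_le_pow_left (by omega) k
    have h2 : (S + 2 * m + 10) ^ (k + 3) =
        (S + 2 * m + 10) ^ k * ((S + 2 * m + 10) * ((S + 2 * m + 10) * (S + 2 * m + 10))) := by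
      ring
    have h3 : 1 ≤ (S + 2 * m + 10) ^ k := Nat.one_le_pow _ _ (by omega)
    have h4 : 10 * (10 * (S + 2 * m + 10)) ≤
        (S + 2 * m + 10) * ((S + 2 * m + 10) * (S + 2 * m + 10)) :=
      Nat.mul_le_mul (by omega) (Nat.mul_le_mul (by omega) le_rfl)
    calc 3 + (41 * m + 20 + (2 * m + S + 3) ^ k) + 2
        ≤ (S + 2 * m + 10) ^ k * (41 * m + 25) + (S + 2 * m + 10) ^ k := by nlinarith
      _ = (S + 2 * m + 10) ^ k * (41 * m + 26) := by ring
      _ ≤ (S + 2 * m + 10) ^ k * ((S + 2 * m + 10) * ((S + 2 * m + 10) * (S + 2 * m + 10))) :=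
          Nat.mul_le_mul_left _ (by omega)
      _ = _ := h2.symm
  have hcpos : 2 ≤ (S + 2 * m + 10) ^ (k + 3) := by omega
  refine (Spec.loop0 (s := σ) (e := .reg (z + 7)) l.length ((S + 2 * m + 10) ^ (k + 3) - 2)
    (fun t σ' => Mem σ' L (absorb upd (l.take t) a) ∧ Inv σ' ∧ σ'.arr A = σ.arr A) rfl h7
    (fun hb => ?_) (fun _ => ⟨by simpa [absorb] using hMem, hInv, rfl⟩) ?_).mono ?_ ?_
  · have := hb.reg (z + 7)
    omega
  · rintro t ht σ1 hb1 - ⟨i1, i2, i3⟩
    set v := l.getD t 0 with hv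
    have hvm : v < 2 ^ m := by
      apply hl
      rw [hv, List.getD_eq_getElem?_getD, List.getElem?_eq_getElem ht]
      exact List.getElem_mem ht
    set σ2 := σ1.setReg (z + 6) t with hσ2
    have j1 : Mem σ2 L (absorb upd (l.take t) a) := i1.congr
      (by rw [hσ2, State.setReg_reg, if_neg (by omega)]) rfl
    have j2 : Inv σ2 := hSt σ1 σ2 (fun i hi => by
      rw [hσ2, State.setReg_reg, if_neg]
      rintro rfl
      exact hi (Or.inr (Or.inl (by omega)))) (fun j _ => rfl) i2
    have hσA : σ2.arr A t = v := by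
      show σ1.arr A t = v
      rw [i3, hA t ht]
    refine (Spec.seq0 3 (41 * m + 20 + (2 * m + S + 3) ^ k) (fun σ' => σ' = σ2.setReg z v)
      ?_ ?_).le (by omega)
    · refine Spec.set1 v ?_ (by simp [Expr.cost]) ?_ (fun hb => ?_) fun _ => rfl
      · have := hPl.A2
        simp [Expr.small, Expr.okb, Expr.cost]; omega
      · simp [hσ2]
        rw [← hσA, hσ2]; simp
      · have := hb.arr A hPl.A2 t
        omega
    rintro σ3 - rfl
    have k1 : Mem (σ2.setReg z v) L (absorb upd (l.take t) a) := j1.congr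
      (by rw [State.setReg_reg, if_neg (by omega)]) rfl
    have k2 : Inv (σ2.setReg z v) := hSt σ2 _ (fun i hi => by
      rw [State.setReg_reg, if_neg]
      rintro rfl
      exact hi (Or.inl rfl)) (fun j _ => rfl) j2
    have hSt' := hS t ht.le
    refine Spec.seq0 (41 * m + 20) ((2 * m + S + 3) ^ k)
      (fun σ' => Mem σ' L (v, absorb upd (l.take t) a)) ?_ ?_
    · refine push_spec hPl.ok hPl.y2 (by have := hPl.ya; omega) (fun i hi => by omega) _
        (by simp) ?_ hvm k1 (by omega)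
      have := hm _ k2
      exact this
    intro σ4 hf4 h4
    have k4 : Inv σ4 := hSt.frame hf4 (fun i hi => by
      rcases pushNat_wr i hi with h | h
      · right; right; right; right; omega
      · right; left; omega) (fun j hj => by
      rcases pushNat_wa j hj with h | h
      · exact Or.inl h
      · right; omega) k2
    have hA4 : σ4.arr A = σ.arr A := by
      rw [hf4.arr A]
      · rw [← i3]; rfl
      · intro h
        have h1 := hPl.Ay
        have h2 := hPl.Aa
        rcases pushNat_wa A h with h | h <;> omega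
    have hsz : esize (v, absorb upd (l.take t) a) ≤ 2 * m + S + 1 := by
      rw [esize_pair]
      have := esize_nat_le hvm
      omega
    have hle : (esize (v, absorb upd (l.take t) a) + 2) ^ k ≤ (2 * m + S + 3) ^ k :=
      Nat.pow_le_pow_left (by omega) k
    have hle2 : (2 * m + S + 3) ^ k ≤ (S + 2 * m + 10) ^ k := Nat.pow_le_pow_left (by omega) k
    refine ((hUs L hPl.ok E σ4 _ h4 (by omega)).withFrame).mono hle ?_
    rintro σ5 ⟨hf5, h5⟩
    refine ⟨by rw [absorb_take_succ upd l a ht]; exact h5, ?_, ?_⟩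
    · exact hSt.frame hf5 (fun i hi => by
        rcases (hU L).wr i hi with h | h | h
        · exact Or.inr (Or.inr (Or.inl h))
        · exact Or.inr (Or.inr (Or.inr (Or.inl h)))
        · right; right; right; right; omega) (fun j hj => by
        have := (hU L).wa j hj
        right; omega) k4
    · rw [hf5.arr A, hA4]
      intro h
      have h1 := (hU L).wa A h
      have h2 := hPl.Aa
      omega
  · have : (S + 2 * m + 10) ^ (k + 3) - 2 + 2 = (S + 2 * m + 10) ^ (k + 3) := by omega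
    rw [this]
    simp [Expr.cost]
  · rintro σ' ⟨h1, h2, -⟩
    refine ⟨?_, h2⟩
    rwa [List.take_length] at h1

/-- The program of the oracle loop. -/
def oracleProg (L : Lay) (z y A : ℕ) (R U Cell : Prog) : Prog :=
  .loop (z + 5) (.reg (z + 8)) (.seq R (.seq Cell (absorbProg L z y A U)))

/-- The oracle loop. -/
theorem exists_oracle {ask : α → ℕ} {upd : ℕ × α → α} (hask : PT ∅ ask) (hupd : PT ∅ upd) :
    ∃ (W k : ℕ) (R : Lay → ℕ → Prog) (U : Lay → Prog),
      (∀ L z, (∀ i ∈ (R L z).wr, OReg L z W i) ∧ ∀ i ∈ (R L z).wa, L.a ≤ i ∧ i ≤ L.a + W) ∧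
      (∀ L, Small (U L) L W) ∧
      ∀ (L : Lay) (z y A : ℕ), Places L z y A W → ∀ (E : Env) (Inv : State → Prop),
        Stable L z y W Inv → ∀ (m S ℓ Tc : ℕ) (V : ℕ → Prop) (ans : ℕ → List ℕ) (Cell : Prog),
        L.r ∉ Cell.wr → L.a ∉ Cell.wa → (∀ σ, Inv σ → σ.reg (z + 1) = m) →
        (∀ q, V q → q ≤ E.R ∧ (ans q).length ≤ ℓ ∧ ∀ v ∈ ans q, v < 2 ^ m) →
        (∀ σ q, Inv σ → σ.reg z = q → V q → Spec E σ Cell Tc (fun σ' => Inv σ' ∧
          σ'.reg (z + 7) = (ans q).length ∧
          ∀ i, i < (ans q).length → σ'.arr A i = (ans q).getD i 0)) →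
        (S + 2 * m + 10) ^ k ≤ E.R → ∀ (Q : ℕ) (a : α) (σ : State), Inv σ → Mem σ L a →
        σ.reg (z + 8) = Q → (∀ t, t < Q → V (ask ((oround ask upd ans)^[t] a))) →
        (∀ t, t < Q → ∀ j ≤ (ans (ask ((oround ask upd ans)^[t] a))).length,
          esize (absorb upd ((ans (ask ((oround ask upd ans)^[t] a))).take j)
            ((oround ask upd ans)^[t] a)) ≤ S) →
        Spec E σ (oracleProg L z y A (R L z) (U L) Cell)
          (2 + Q * (Tc + (ℓ + 1) * (S + 2 * m + 10) ^ k))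
          (fun σ' => Mem σ' L ((oround ask upd ans)^[Q] a) ∧ Inv σ') := by
  obtain ⟨W₁, k₁, R, hR, hRs⟩ := exists_read hask
  obtain ⟨W₂, k₂, U, hU, hUs⟩ := absorb_spec hupd
  refine ⟨W₁ + W₂, max k₁ k₂ + 1, R, U, fun L z => ⟨fun i hi => ?_, fun i hi => ?_⟩,
    fun L => (hU L).mono (by omega), ?_⟩
  · rcases (hR L z).1 i hi with h | h | h | h | h
    · exact Or.inl h
    · right; left; omega
    · exact Or.inr (Or.inr (Or.inl h))
    · exact Or.inr (Or.inr (Or.inr (Or.inl h)))
    · right; right; right; right; omega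
  · have := (hR L z).2 i hi
    omega
  intro L z y A hPl E Inv hSt m S ℓ Tc V ans Cell hCr hCa hm hans hCell hbR Q a σ hInv hMem hQ
    hV hS
  have hz3 := hPl.z3
  have hB := hPl.z1
  have hc := hPl.z2
  have hBr := hPl.ok.B
  have hcr := hPl.ok.c
  set k := max k₁ k₂ with hk
  have hX1 : (S + 2 * m + 10) ^ k₁ ≤ (S + 2 * m + 10) ^ k :=
    Nat.pow_le_pow_right (by omega) (le_max_left _ _)
  have hX2 : (S + 2 * m + 10) ^ k₂ ≤ (S + 2 * m + 10) ^ k :=
    Nat.pow_le_pow_right (by omega) (le_max_right _ _)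
  have hX3 : 10 * (S + 2 * m + 10) ^ k ≤ (S + 2 * m + 10) ^ (k + 1) := by
    rw [pow_succ, Nat.mul_comm]
    exact Nat.mul_le_mul_left _ (by omega)
  have hX4 : 1 ≤ (S + 2 * m + 10) ^ k := Nat.one_le_pow _ _ (by omega)
  have hcost : (S + 2 * m + 10) ^ k + (Tc + (2 + ℓ * (S + 2 * m + 10) ^ k)) + 2 ≤
      Tc + (ℓ + 1) * (S + 2 * m + 10) ^ (k + 1) := by
    have : ℓ * (S + 2 * m + 10) ^ k ≤ ℓ * (S + 2 * m + 10) ^ (k + 1) :=
      Nat.mul_le_mul_left _ (by omega)
    rw [Nat.add_mul, Nat.one_mul]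
    omega
  refine (Spec.loop0 (s := σ) (e := .reg (z + 8)) Q
    ((S + 2 * m + 10) ^ k + (Tc + (2 + ℓ * (S + 2 * m + 10) ^ k)))
    (fun t σ' => Mem σ' L ((oround ask upd ans)^[t] a) ∧ Inv σ') rfl hQ (fun hb => ?_)
    (fun _ => ⟨hMem, hInv⟩) ?_).mono ?_ fun σ' h => h
  · have := hb.reg (z + 8)
    omega
  · rintro t ht σ1 hb1 - ⟨i1, i2⟩
    set b := (oround ask upd ans)^[t] a with hb
    set q := ask b with hq
    obtain ⟨hqR, hql, hqv⟩ := hans q (hV t ht)
    have hSb : esize b ≤ S := by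
      have := hS t ht 0 (Nat.zero_le _)
      simpa [absorb] using this
    set σ2 := σ1.setReg (z + 5) t with hσ2
    have j1 : Mem σ2 L b := i1.congr (by rw [hσ2, State.setReg_reg, if_neg (by omega)]) rfl
    have j2 : Inv σ2 := hSt σ1 σ2 (fun i hi => by
      rw [hσ2, State.setReg_reg, if_neg]
      rintro rfl
      exact hi (Or.inr (Or.inl (by omega)))) (fun j _ => rfl) i2
    have hle : (esize b + 2) ^ k₁ ≤ (S + 2 * m + 10) ^ k₁ := Nat.pow_le_pow_left (by omega) k₁
    refine Spec.seq0 _ _ (fun σ' => Mem σ' L b ∧ σ'.reg z = q)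
      ((hRs L hPl.ok z (Or.inr (by omega)) E σ2 b j1 (by omega) hqR).le (hle.trans hX1)) ?_
    rintro σ3 hf3 ⟨k1, k2⟩
    have k3 : Inv σ3 := hSt.frame hf3 (fun i hi => by
      rcases (hR L z).1 i hi with h | h | h | h | h
      · exact Or.inl h
      · right; left; omega
      · exact Or.inr (Or.inr (Or.inl h))
      · exact Or.inr (Or.inr (Or.inr (Or.inl h)))
      · right; right; right; right; omega) (fun j hj => by
      have := (hR L z).2 j hj
      right; omega) j2
    refine Spec.seq0 _ _ _ (hCell σ3 q k3 k2 (hV t ht)) ?_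
    rintro σ4 hf4 ⟨l1, l2, l3⟩
    have l4 : Mem σ4 L b := k1.frame hf4 hCr hCa
    have hSt2 : Stable L z y (W₁ + W₂) Inv := hSt
    refine (hUs (W₁ + W₂) (by omega) L z y A hPl E Inv hSt m S (ans q) b σ4 hm hqv
      (fun j hj => hS t ht j hj) (by omega) l1 l4 l2 l3).mono ?_ ?_
    · have := Nat.mul_le_mul hql hX2
      omega
    · rintro σ5 ⟨m1, m2⟩
      refine ⟨?_, m2⟩
      rw [Function.iterate_succ_apply']
      exact m1
  · have h1 := Nat.mul_le_mul_left Q hcost
    simp only [Expr.cost]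
    omega

end

end Vale.Agent.P315.RAM
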