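import Vale.Agent.P315.RAM.Oracle

/-!
# One window

`exists_window`: reset the memory word, feed a list of numbers, apply the start function, run the
oracle loop, and drain the output numbers.
-/

set_option autoImplicit false

namespace Vale.Agent.P315.RAM

open Vale.Agent.Lib.PolyTime (Word pb pr FP PT Enc enc esize)

variable {E : Env}

/-- Feed: for `e` below the number in register `z + 9`, run `Load` (which puts a number into
register `z`) and push the number on the memory word. -/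
def feedProg (L : Lay) (z y : ℕ) (Load : Prog) : Prog :=
  .loop (z + 6) (.reg (z + 9)) (.seq Load (pushNat z y L.a L.r))

/-- The first `t` numbers, newest first. -/
def fed (v : ℕ → ℕ) : ℕ → List ℕ
  | 0 => []
  | t + 1 => v t :: fed v t

theorem fed_length (v : ℕ → ℕ) (t : ℕ) : (fed v t).length = t := by
  induction t with
  | zero => rfl
  | succ t ih => simp [fed, ih]

theorem fed_eq (v : ℕ → ℕ) (t : ℕ) : fed v t = ((List.range t).map v).reverse := by
  induction t with
  | zero => rfl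
  | succ t ih => rw [List.range_succ, List.map_append, List.reverse_append, ← ih]; rfl

theorem esize_fed {v : ℕ → ℕ} {m N : ℕ} (hv : ∀ t, t < N → v t < 2 ^ m) {t : ℕ} (ht : t ≤ N) :
    esize (fed v t) ≤ t * (2 * m + 1) := by
  induction t with
  | zero => simp [fed, esize, Vale.Agent.Lib.PolyTime.enc_nil]
  | succ t ih =>
    have h1 := ih (by omega)
    have h2 := esize_nat_le (hv t (by omega))
    have h3 : esize (fed v (t + 1)) = 2 * esize (v t) + esize (fed v t) + 1 := by
      show (enc (v t :: fed v t)).length = _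
      rw [Vale.Agent.Lib.PolyTime.enc_cons, Vale.Agent.Lib.PolyTime.length_pr]
      rfl
    have h4 : (t + 1) * (2 * m + 1) = t * (2 * m + 1) + (2 * m + 1) := by ring
    omega

theorem feed_spec {L : Lay} {z y A W : ℕ} (hPl : Places L z y A W) {Inv : State → Prop}
    (hSt : Stable L z y W Inv) {m N Tl : ℕ} {v : ℕ → ℕ} {Load : Prog}
    (hLr : L.r ∉ Load.wr) (hLa : L.a ∉ Load.wa)
    (hm : ∀ σ, Inv σ → σ.reg (z + 1) = m) (hv : ∀ t, t < N → v t < 2 ^ m)
    (hLoad : ∀ σ t, Inv σ → σ.reg (z + 6) = t → t < N →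
      Spec E σ Load Tl (fun σ' => Inv σ' ∧ σ'.reg z = v t))
    (hR : N * (2 * m + 1) + 2 * m + 1 ≤ E.R) (σ : State) (hInv : Inv σ)
    (hMem : Mem σ L ([] : List ℕ)) (hN : σ.reg (z + 9) = N) :
    Spec E σ (feedProg L z y Load) (2 + N * (Tl + (41 * m + 22)))
      (fun σ' => Mem σ' L (fed v N) ∧ Inv σ') := by
  have hz3 := hPl.z3
  have hB := hPl.z1
  have hc := hPl.z2
  have hBr := hPl.ok.B
  have hcr := hPl.ok.c
  refine (Spec.loop0 (s := σ) (e := .reg (z + 9)) N (Tl + (41 * m + 20))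
    (fun t σ' => Mem σ' L (fed v t) ∧ Inv σ') rfl hN (fun hb => ?_)
    (fun _ => ⟨hMem, hInv⟩) ?_).mono ?_ fun σ' h => h
  · have := hb.reg (z + 9)
    omega
  · rintro t ht σ1 hb1 - ⟨i1, i2⟩
    set σ2 := σ1.setReg (z + 6) t with hσ2
    have j1 : Mem σ2 L (fed v t) := i1.congr
      (by rw [hσ2, State.setReg_reg, if_neg (by omega)]) rfl
    have j2 : Inv σ2 := hSt σ1 σ2 (fun i hi => by
      rw [hσ2, State.setReg_reg, if_neg]
      rintro rfl
      exact hi (Or.inr (Or.inl (by omega)))) (fun j _ => rfl) i2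
    refine Spec.seq0 _ _ _ (hLoad σ2 t j2 (by simp [hσ2]) ht) ?_
    rintro σ3 hf3 ⟨k1, k2⟩
    have k3 : Mem σ3 L (fed v t) := j1.frame hf3 hLr hLa
    have hsz := esize_fed hv ht.le
    have hNt : t * (2 * m + 1) ≤ N * (2 * m + 1) := Nat.mul_le_mul_right _ ht.le
    refine ((push_spec hPl.ok hPl.y2 (by have := hPl.ya; omega) (fun i hi => by omega) σ3
      k2 (hm _ k1) (hv t ht) k3 (by omega)).withFrame).mono le_rfl ?_
    rintro σ4 ⟨hf4, h4⟩
    refine ⟨h4, hSt.frame hf4 (fun i hi => ?_) (fun j hj => ?_) k1⟩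
    · rcases pushNat_wr i hi with h | h
      · right; right; right; right; omega
      · right; left; omega
    · rcases pushNat_wa j hj with h | h
      · exact Or.inl h
      · right; omega
  · simp only [Expr.cost]
    have : Tl + (41 * m + 20) + 2 = Tl + (41 * m + 22) := by omega
    rw [this]

/-- Drain: for `e` below the number in register `z + 10`, push `e`, read a number, store it, and
pop `e`. -/
def drainProg (L : Lay) (z y : ℕ) (R U Store : Prog) : Prog :=
  .loop (z + 6) (.reg (z + 10)) (.seq (.set z (.reg (z + 6)))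
    (.seq (pushNat z y L.a L.r) (.seq R (.seq Store U))))

section
variable {α : Type*} [Enc α]

theorem exists_drain {out : ℕ × α → ℕ} (hout : PT ∅ out) :
    ∃ (W k : ℕ) (R : Lay → ℕ → Prog) (U : Lay → Prog),
      (∀ L z, (∀ i ∈ (R L z).wr, i = z ∨ i = z + 4 ∨ i = L.c ∨ i = L.B ∨
        (L.r ≤ i ∧ i ≤ L.r + W)) ∧ ∀ i ∈ (R L z).wa, L.a ≤ i ∧ i ≤ L.a + W) ∧
      (∀ L, Small (U L) L W) ∧
      ∀ (W' : ℕ), W ≤ W' → ∀ (L : Lay) (z y A : ℕ), Places L z y A W' → ∀ (E : Env)
        (J : ℕ → State → Prop), (∀ t, Stable L z y W' (J t)) →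
        ∀ (m S N Ts : ℕ) (a : α) (Store : Prog), L.r ∉ Store.wr → L.a ∉ Store.wa →
        (∀ t σ, J t σ → σ.reg (z + 1) = m) → N ≤ 2 ^ m → esize a ≤ S →
        (S + 2 * m + 10) ^ k ≤ E.R → (∀ t, t < N → out (t, a) ≤ E.R) →
        (∀ σ t, J t σ → σ.reg z = out (t, a) → σ.reg (z + 6) = t → t < N →
          Spec E σ Store Ts (J (t + 1))) →
        ∀ σ : State, J 0 σ → Mem σ L a → σ.reg (z + 10) = N →
        Spec E σ (drainProg L z y (R L z) (U L) Store)
          (2 + N * (Ts + (S + 2 * m + 10) ^ k)) (fun σ' => J N σ' ∧ Mem σ' L a) := by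
  obtain ⟨W₁, k₁, R, hR, hRs⟩ := exists_read hout
  obtain ⟨W₂, k₂, U, hU, hUs⟩ := exists_apply (α := ℕ × α) (β := α) (f := fun p => p.2)
    Vale.Agent.Lib.PolyTime.PT.snd'
  refine ⟨W₁ + W₂, max k₁ k₂ + 3, R, U, fun L z => ⟨fun i hi => ?_, fun i hi => ?_⟩,
    fun L => (hU L).mono (by omega), ?_⟩
  · rcases (hR L z).1 i hi with h | h | h | h | h
    · exact Or.inl h
    · exact Or.inr (Or.inl h)
    · exact Or.inr (Or.inr (Or.inl h))
    · exact Or.inr (Or.inr (Or.inr (Or.inl h)))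
    · right; right; right; right; omega
  · have := (hR L z).2 i hi
    omega
  intro W' hW' L z y A hPl E J hSt m S N Ts a Store hSr hSa hm hN haS hbR hoR hStore σ hJ hMem h10
  have hz3 := hPl.z3
  have hB := hPl.z1
  have hc := hPl.z2
  have hBr := hPl.ok.B
  have hcr := hPl.ok.c
  set k := max k₁ k₂ with hk
  have hX1 : (S + 2 * m + 10) ^ k₁ ≤ (S + 2 * m + 10) ^ k :=
    Nat.pow_le_pow_right (by omega) (le_max_left _ _)
  have hX2 : (S + 2 * m + 10) ^ k₂ ≤ (S + 2 * m + 10) ^ k :=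
    Nat.pow_le_pow_right (by omega) (le_max_right _ _)
  have hXX : (S + 2 * m + 10) ^ k ≤ (S + 2 * m + 10) ^ (k + 3) :=
    Nat.pow_le_pow_right (by omega) (by omega)
  have hcost : 2 + (41 * m + 20 + ((S + 2 * m + 10) ^ k + (Ts + (S + 2 * m + 10) ^ k))) + 2 ≤
      Ts + (S + 2 * m + 10) ^ (k + 3) := by
    have h2 : (S + 2 * m + 10) ^ (k + 3) =
        (S + 2 * m + 10) ^ k * ((S + 2 * m + 10) * ((S + 2 * m + 10) * (S + 2 * m + 10))) := by
      ring
    have h3 : 1 ≤ (S + 2 * m + 10) ^ k := Nat.one_le_pow _ _ (by omega)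
    have h4 : 10 * (10 * (S + 2 * m + 10)) ≤
        (S + 2 * m + 10) * ((S + 2 * m + 10) * (S + 2 * m + 10)) :=
      Nat.mul_le_mul (by omega) (Nat.mul_le_mul (by omega) le_rfl)
    have h5 : (S + 2 * m + 10) ^ k * (41 * m + 26) ≤
        (S + 2 * m + 10) ^ k * ((S + 2 * m + 10) * ((S + 2 * m + 10) * (S + 2 * m + 10))) :=
      Nat.mul_le_mul_left _ (by omega)
    have h6 : 41 * m + 24 ≤ (S + 2 * m + 10) ^ k * (41 * m + 24) :=
      Nat.le_mul_of_pos_left _ (by omega)
    have h7 : (S + 2 * m + 10) ^ k * (41 * m + 26) = (S + 2 * m + 10) ^ k * (41 * m + 24) +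
      2 * (S + 2 * m + 10) ^ k := by ring
    omega
  refine (Spec.loop0 (s := σ) (e := .reg (z + 10)) N
    (2 + (41 * m + 20 + ((S + 2 * m + 10) ^ k + (Ts + (S + 2 * m + 10) ^ k))))
    (fun t σ' => J t σ' ∧ Mem σ' L a) rfl h10 (fun hb => ?_)
    (fun _ => ⟨hJ, hMem⟩) ?_).mono ?_ fun σ' h => h
  · have := hb.reg (z + 10)
    omega
  · rintro t ht σ1 hb1 - ⟨i1, i2⟩
    have htm : t < 2 ^ m := by omega
    set σ2 := (σ1.setReg (z + 6) t).setReg z t with hσ2
    have j1 : J t σ2 := hSt t σ1 σ2 (fun i hi => by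
      rw [hσ2, State.setReg_reg, if_neg, State.setReg_reg, if_neg]
      · rintro rfl
        exact hi (Or.inr (Or.inl (by omega)))
      · rintro rfl
        exact hi (Or.inl rfl)) (fun j _ => rfl) i1
    have j2 : Mem σ2 L a := i2.congr (by
      rw [hσ2, State.setReg_reg, if_neg (by omega), State.setReg_reg, if_neg (by omega)]) rfl
    refine Spec.seq0 2 _ (fun σ' => σ' = σ2) (Spec.set1 t rfl (by simp [Expr.cost]) (by simp)
      (fun hb => ?_) fun _ => rfl) ?_
    · have := hb.reg (z + 6)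
      simpa using this
    rintro σ2' - rfl
    refine Spec.seq0 (41 * m + 20) _ (fun σ' => Mem σ' L (t, a)) ?_ ?_
    · refine push_spec hPl.ok hPl.y2 (by have := hPl.ya; omega) (fun i hi => by omega) _
        (by simp [hσ2]) (hm t _ j1) htm j2 ?_
      have h8 : S + 2 * m + 10 ≤ (S + 2 * m + 10) ^ (k + 3) := by
        calc S + 2 * m + 10 = (S + 2 * m + 10) ^ 1 := (pow_one _).symm
          _ ≤ _ := Nat.pow_le_pow_right (by omega) (by omega)
      omega
    intro σ3 hf3 k1
    have k2 : J t σ3 := (hSt t).frame hf3 (fun i hi => by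
      rcases pushNat_wr i hi with h | h
      · right; right; right; right; omega
      · right; left; omega) (fun j hj => by
      rcases pushNat_wa j hj with h | h
      · exact Or.inl h
      · right; omega) j1
    have k3 : σ3.reg (z + 6) = t := by
      rw [hf3.reg]
      · simp [hσ2]
      · intro h
        rcases pushNat_wr _ h with h | h <;> omega
    have hsz : esize (t, a) ≤ 2 * m + S + 1 := by
      rw [esize_pair]
      have := esize_nat_le htm
      omega
    have hle : (esize (t, a) + 2) ^ k₁ ≤ (S + 2 * m + 10) ^ k₁ :=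
      Nat.pow_le_pow_left (by omega) k₁
    have hle2 : (esize (t, a) + 2) ^ k₂ ≤ (S + 2 * m + 10) ^ k₂ :=
      Nat.pow_le_pow_left (by omega) k₂
    refine Spec.seq0 _ _ (fun σ' => Mem σ' L (t, a) ∧ σ'.reg z = out (t, a))
      ((hRs L hPl.ok z (Or.inr (by omega)) E σ3 (t, a) k1 (by omega) (hoR t ht)).le
        (hle.trans hX1)) ?_
    rintro σ4 hf4 ⟨l1, l2⟩
    have l3 : J t σ4 := (hSt t).frame hf4 (fun i hi => by
      rcases (hR L z).1 i hi with h | h | h | h | h
      · exact Or.inl h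
      · right; left; omega
      · exact Or.inr (Or.inr (Or.inl h))
      · exact Or.inr (Or.inr (Or.inr (Or.inl h)))
      · right; right; right; right; omega) (fun j hj => by
      have := (hR L z).2 j hj
      right; omega) k2
    have l4 : σ4.reg (z + 6) = t := by
      rw [hf4.reg, k3]
      intro h
      rcases (hR L z).1 _ h with h | h | h | h | h <;> omega
    refine Spec.seq0 _ _ _ (hStore σ4 t l3 l2 l4 ht) ?_
    rintro σ5 hf5 m1
    have m2 : Mem σ5 L (t, a) := l1.frame hf5 hSr hSa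
    refine ((hUs L hPl.ok E σ5 (t, a) m2 (by omega)).withFrame).mono (hle2.trans hX2) ?_
    rintro σ6 ⟨hf6, m3⟩
    refine ⟨(hSt (t + 1)).frame hf6 (fun i hi => ?_) (fun j hj => ?_) m1, m3⟩
    · rcases (hU L).wr i hi with h | h | h
      · exact Or.inr (Or.inr (Or.inl h))
      · exact Or.inr (Or.inr (Or.inr (Or.inl h)))
      · right; right; right; right; omega
    · have := (hU L).wa j hj
      right; omega
  · have h1 := Nat.mul_le_mul_left N hcost
    simp only [Expr.cost]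
    omega

/-- The program for one window. -/
def windowProg (L : Lay) (z y A : ℕ) (P0 R U R' U' Load Cell Store : Prog) : Prog :=
  .seq (.set L.r (.lit 0)) (.seq (feedProg L z y Load) (.seq P0
    (.seq (oracleProg L z y A R U Cell) (drainProg L z y R' U' Store))))

/-- One window. -/
theorem exists_window {start : List ℕ → α} {ask : α → ℕ} {upd : ℕ × α → α} {out : ℕ × α → ℕ}
    (hstart : PT ∅ start) (hask : PT ∅ ask) (hupd : PT ∅ upd) (hout : PT ∅ out) :
    ∃ (W k : ℕ) (P : Lay → ℕ → ℕ → ℕ → Prog → Prog → Prog → Prog),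
      (∀ L z y A Load Cell Store,
        (∀ i ∈ (P L z y A Load Cell Store).wr, OReg L z W i ∨ i ∈ Load.wr ∨ i ∈ Cell.wr ∨
          i ∈ Store.wr) ∧
        ∀ i ∈ (P L z y A Load Cell Store).wa, OArr L y W i ∨ i ∈ Load.wa ∨ i ∈ Cell.wa ∨
          i ∈ Store.wa) ∧
      ∀ (L : Lay) (z y A : ℕ), Places L z y A W → ∀ (E : Env) (J : ℕ → State → Prop),
        (∀ t, Stable L z y W (J t)) → ∀ (m S ℓ N No Q Tl Tc Ts : ℕ) (v : ℕ → ℕ) (V : ℕ → Prop)
        (ans : ℕ → List ℕ) (Load Cell Store : Prog),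
        L.r ∉ Load.wr → L.a ∉ Load.wa → L.r ∉ Cell.wr → L.a ∉ Cell.wa → L.r ∉ Store.wr →
        L.a ∉ Store.wa →
        (∀ t σ, J t σ → σ.reg (z + 1) = m) → (∀ σ, J 0 σ → σ.reg (z + 8) = Q) →
        (∀ σ, J 0 σ → σ.reg (z + 9) = N) → (∀ σ, J 0 σ → σ.reg (z + 10) = No) →
        (∀ t, t < N → v t < 2 ^ m) →
        (∀ σ t, J 0 σ → σ.reg (z + 6) = t → t < N →
          Spec E σ Load Tl (fun σ' => J 0 σ' ∧ σ'.reg z = v t)) →
        (∀ q, V q → q ≤ E.R ∧ (ans q).length ≤ ℓ ∧ ∀ v ∈ ans q, v < 2 ^ m) →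
        (∀ σ q, J 0 σ → σ.reg z = q → V q → Spec E σ Cell Tc (fun σ' => J 0 σ' ∧
          σ'.reg (z + 7) = (ans q).length ∧
          ∀ i, i < (ans q).length → σ'.arr A i = (ans q).getD i 0)) →
        (∀ t, t < Q → V (ask ((oround ask upd ans)^[t] (start (fed v N))))) →
        (∀ t, t < Q → ∀ j ≤ (ans (ask ((oround ask upd ans)^[t] (start (fed v N))))).length,
          esize (absorb upd ((ans (ask ((oround ask upd ans)^[t] (start (fed v N))))).take j)
            ((oround ask upd ans)^[t] (start (fed v N)))) ≤ S) →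
        esize ((oround ask upd ans)^[Q] (start (fed v N))) ≤ S →
        No ≤ 2 ^ m → (∀ t, t < No → out (t, (oround ask upd ans)^[Q] (start (fed v N))) ≤ E.R) →
        (∀ σ t, J t σ → σ.reg z = out (t, (oround ask upd ans)^[Q] (start (fed v N))) →
          σ.reg (z + 6) = t → t < No → Spec E σ Store Ts (J (t + 1))) →
        (N * (2 * m + 1) + S + 2 * m + 10) ^ k ≤ E.R →
        ∀ σ : State, J 0 σ →
        Spec E σ (P L z y A Load Cell Store)
          (N * (Tl + (41 * m + 22)) + Q * (Tc + (ℓ + 1) * (S + 2 * m + 10) ^ k) +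
            No * (Ts + (S + 2 * m + 10) ^ k) + (N * (2 * m + 1) + S + 2 * m + 10) ^ k)
          (J No) := by
  obtain ⟨W₀, k₀, P0, hP0, hP0s⟩ := exists_apply hstart
  obtain ⟨W₁, k₁, R, U, hR, hU, hOr⟩ := exists_oracle hask hupd
  obtain ⟨W₂, k₂, R', U', hR', hU', hDr⟩ := exists_drain hout
  set W := W₀ + W₁ + W₂ with hW
  set k := k₀ + k₁ + k₂ with hk
  refine ⟨W, k + 1, fun L z y A Load Cell Store => windowProg L z y A (P0 L) (R L z) (U L)
    (R' L z) (U' L) Load Cell Store, fun L z y A Load Cell Store => ⟨fun i hi => ?_,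
    fun i hi => ?_⟩, ?_⟩
  · simp only [windowProg, feedProg, oracleProg, absorbProg, drainProg, Prog.wr,
      List.mem_append, List.mem_cons, List.not_mem_nil, or_false] at hi
    have hR1 := (hR L z).1 i
    have hR2 := (hR' L z).1 i
    have hU1 := (hU L).wr i
    have hU2 := (hU' L).wr i
    have hP1 := (hP0 L).wr i
    have hp := @pushNat_wr z y L.a L.r i
    unfold OReg at hR1 ⊢
    by_cases h1 : i ∈ (P0 L).wr
    · have := hP1 h1; left; omega
    by_cases h2 : i ∈ (R L z).wr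
    · have := hR1 h2; left; omega
    by_cases h3 : i ∈ (R' L z).wr
    · have := hR2 h3; left; omega
    by_cases h4 : i ∈ (U L).wr
    · have := hU1 h4; left; omega
    by_cases h5 : i ∈ (U' L).wr
    · have := hU2 h5; left; omega
    by_cases h6 : i ∈ (pushNat z y L.a L.r).wr
    · have := hp h6; left; omega
    by_cases h7 : i ∈ Load.wr
    · exact Or.inr (Or.inl h7)
    by_cases h8 : i ∈ Cell.wr
    · exact Or.inr (Or.inr (Or.inl h8))
    by_cases h9 : i ∈ Store.wr
    · exact Or.inr (Or.inr (Or.inr h9))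
    simp only [h1, h2, h3, h4, h5, h6, h7, h8, h9, or_false, false_or] at hi
    left
    omega
  · simp only [windowProg, feedProg, oracleProg, absorbProg, drainProg, Prog.wa,
      List.mem_append, List.not_mem_nil, false_or] at hi
    have hR1 := (hR L z).2 i
    have hR2 := (hR' L z).2 i
    have hU1 := (hU L).wa i
    have hU2 := (hU' L).wa i
    have hP1 := (hP0 L).wa i
    have hp := @pushNat_wa z y L.a L.r i
    unfold OArr
    by_cases h1 : i ∈ (P0 L).wa
    · have := hP1 h1; left; omega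
    by_cases h2 : i ∈ (R L z).wa
    · have := hR1 h2; left; omega
    by_cases h3 : i ∈ (R' L z).wa
    · have := hR2 h3; left; omega
    by_cases h4 : i ∈ (U L).wa
    · have := hU1 h4; left; omega
    by_cases h5 : i ∈ (U' L).wa
    · have := hU2 h5; left; omega
    by_cases h6 : i ∈ (pushNat z y L.a L.r).wa
    · have := hp h6; left; omega
    by_cases h7 : i ∈ Load.wa
    · exact Or.inr (Or.inl h7)
    by_cases h8 : i ∈ Cell.wa
    · exact Or.inr (Or.inr (Or.inl h8))
    by_cases h9 : i ∈ Store.wa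
    · exact Or.inr (Or.inr (Or.inr h9))
    simp only [h1, h2, h3, h4, h5, h6, h7, h8, h9, or_false] at hi
  intro L z y A hPl E J hSt m S ℓ N No Q Tl Tc Ts v V ans Load Cell Store hLr hLa hCr hCa hSr hSa
    hm h8 h9 h10 hv hLoad hans hCell hV hS hSQ hNo hoR hStore hbR σ hJ
  have hz3 := hPl.z3
  have hB := hPl.z1
  have hc := hPl.z2
  have hBr := hPl.ok.B
  have hcr := hPl.ok.c
  set X := N * (2 * m + 1) + S + 2 * m + 10 with hX
  have hPl1 : Places L z y A W₁ := ⟨hPl.ok, hPl.z1, hPl.z2, hPl.y2, by have := hPl.ya; omega,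
    hPl.A2, by have := hPl.Aa; omega, hPl.Ay⟩
  have hmonoR : ∀ i, OReg L z W₁ i → OReg L z W i := fun i hi => by
    unfold OReg at hi ⊢; omega
  have hmonoA : ∀ i, OArr L y W₁ i → OArr L y W i := fun i hi => by
    unfold OArr at hi ⊢; omega
  have hSt1 : ∀ t, Stable L z y W₁ (J t) := fun t σ σ' hr ha => hSt t σ σ'
    (fun i hi => hr i fun h => hi (hmonoR i h)) (fun j hj => ha j fun h => hj (hmonoA j h))
  have hSk : ∀ j, j ≤ k → (S + 2 * m + 10) ^ j ≤ (S + 2 * m + 10) ^ (k + 1) := fun j hj =>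
    Nat.pow_le_pow_right (by omega) (by omega)
  have hSX : (S + 2 * m + 10) ^ (k + 1) ≤ X ^ (k + 1) := Nat.pow_le_pow_left (by omega) _
  have hXk : ∀ j, j ≤ k → X ^ j ≤ X ^ k := fun j hj => Nat.pow_le_pow_right (by omega) hj
  have hX10 : 10 * X ^ k ≤ X ^ (k + 1) := by
    rw [pow_succ, Nat.mul_comm]
    exact Nat.mul_le_mul_left _ (by omega)
  have hX1 : 1 ≤ X ^ k := Nat.one_le_pow _ _ (by omega)
  have hXX : X ≤ X ^ (k + 1) := by
    calc X = X ^ 1 := (pow_one _).symm
      _ ≤ _ := Nat.pow_le_pow_right (by omega) (by omega)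
  have hszF : esize (fed v N) ≤ N * (2 * m + 1) := esize_fed hv le_rfl
  have hle0 : (esize (fed v N) + 2) ^ k₀ ≤ X ^ k :=
    (Nat.pow_le_pow_left (by omega) k₀).trans (hXk k₀ (by omega))
  -- reset
  refine (Spec.seq0 2 ((2 + N * (Tl + (41 * m + 22))) + ((esize (fed v N) + 2) ^ k₀ +
    ((2 + Q * (Tc + (ℓ + 1) * (S + 2 * m + 10) ^ k₁)) +
      (2 + No * (Ts + (S + 2 * m + 10) ^ k₂))))) (fun σ' => σ' = σ.setReg L.r 0) ?_ ?_).le ?_
  · exact Spec.set0 0 rfl rfl (fun _ => by omega) fun _ => rfl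
  · rintro σ1 - rfl
    have j1 : J 0 (σ.setReg L.r 0) := hSt 0 σ _ (fun i hi => by
      rw [State.setReg_reg, if_neg]
      rintro rfl
      exact hi (Or.inr (Or.inr (Or.inr (Or.inr ⟨le_rfl, by omega⟩))))) (fun j _ => rfl) hJ
    have j2 : Mem (σ.setReg L.r 0) L ([] : List ℕ) :=
      ⟨by simp [Vale.Agent.Lib.PolyTime.enc_nil], fun i hi => by
        simp [Vale.Agent.Lib.PolyTime.enc_nil] at hi⟩
    refine Spec.seq0 _ _ _ (feed_spec hPl (hSt 0) hLr hLa (hm 0) hv hLoad (by omega) _ j1 j2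
      (h9 _ j1)) ?_
    rintro σ2 - ⟨k1, k2⟩
    refine Spec.seq0 _ _ _ (hP0s L hPl.ok E σ2 (fed v N) k1 (by omega)) ?_
    intro σ3 hf3 l1
    have l2 : J 0 σ3 := (hSt 0).frame hf3 (fun i hi => by
      rcases (hP0 L).wr i hi with h | h | h
      · exact Or.inr (Or.inr (Or.inl h))
      · exact Or.inr (Or.inr (Or.inr (Or.inl h)))
      · right; right; right; right; omega) (fun j hj => by
      have := (hP0 L).wa j hj
      right; omega) k2
    refine Spec.seq0 _ _ _ (hOr L z y A hPl1 E (J 0) (hSt1 0) m S ℓ Tc V ans Cell hCr hCa (hm 0)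
      hans hCell ?_ Q _ σ3 l2 l1 (h8 _ l2) hV hS) ?_
    · have := hSk k₁ (by omega)
      omega
    rintro σ4 - ⟨m1, m2⟩
    refine (hDr W (by omega) L z y A hPl E J hSt m S No Ts _ Store hSr hSa hm hNo hSQ ?_ hoR
      hStore σ4 m2 m1 (h10 _ m2)).mono le_rfl fun σ' h => h.1
    have := hSk k₂ (by omega)
    omega
  · have e1 := Nat.mul_le_mul_left (ℓ + 1) (hSk k₁ (by omega))
    have e2 : Q * (Tc + (ℓ + 1) * (S + 2 * m + 10) ^ k₁) ≤
        Q * (Tc + (ℓ + 1) * (S + 2 * m + 10) ^ (k + 1)) := Nat.mul_le_mul_left _ (by omega)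
    have e3 := hSk k₂ (by omega)
    have e4 : No * (Ts + (S + 2 * m + 10) ^ k₂) ≤ No * (Ts + (S + 2 * m + 10) ^ (k + 1)) :=
      Nat.mul_le_mul_left _ (by omega)
    omega

end

end Vale.Agent.P315.RAM
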