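import Vale.Agent.P315.H865.Reads
import Vale.Agent.P315.H865.Derand
import Vale.Agent.P315.H873.Feed2
import Vale.Agent.P315.RAM.Window

/-!
# The main program: one pass

Input `x`, `y`. The parameters are polynomial time functions of the lengths; a feed of parameters
and random numbers; the oracle loop, in which the queries are answered by a given program; the
output. The exponent of the overhead of the strategy depends on the strategy only, not on the
parameters.
-/

set_option autoImplicit false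

namespace Vale.Agent.P315

/-- Random words are only consumed. -/
theorem Prog.coins_mono (ρ : ℕ → ℕ) (p : Prog) : ∀ s, s.coins ≤ (p.run ρ s).coins := by
  induction p with
  | set i e => intro s; exact le_rfl
  | put j e e' => intro s; exact le_rfl
  | rand i => intro s; exact Nat.le_succ _
  | seq p q ihp ihq =>
    intro s
    exact (ihp s).trans (ihq _)
  | ite e p q ihp ihq =>
    intro s
    simp only [Prog.run]
    split_ifs
    · exact ihq s
    · exact ihp s
  | loop i e p ih =>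
    intro s
    have key : ∀ m, s.coins ≤ (s.rounds (fun t s' => p.run ρ (s'.setReg i t)) m).coins := by
      intro m
      induction m with
      | zero => exact le_rfl
      | succ m ihm =>
        simp only [State.rounds]
        exact ihm.trans (ih ((s.rounds (fun t s' => p.run ρ (s'.setReg i t)) m).setReg i m))
    exact key _

theorem Spec.coinsLe {E : Env} {s : State} {p : Prog} {c : ℕ} {Q : State → Prop}
    (h : Spec E s p c Q) : Spec E s p c (fun s' => s.coins ≤ s'.coins ∧ Q s') := fun hb =>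
  ⟨⟨p.coins_mono E.ρ s, (h hb).1⟩, (h hb).2⟩

end Vale.Agent.P315

namespace Vale.Agent.P315.RAM

open Vale.Agent.Lib.PolyTime (Word pb pr FP PT Enc enc esize)

/-- The layout of the main program. -/
def L0 : Lay := ⟨200, 200, 101, 100⟩

theorem L0_ok : L0.Ok := ⟨by decide, by decide, by decide, by decide⟩

/-- A strategy: four polynomial time functions. -/
structure Strat (α : Type) [Enc α] where
  start : List ℕ → α
  ask : α → ℕ
  upd : ℕ × α → α
  out : α → ℕ
  pt_start : PT ∅ start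
  pt_ask : PT ∅ ask
  pt_upd : PT ∅ upd
  pt_out : PT ∅ out

/-- Parameters as functions of the two lengths: `m` bits of the numbers, `N` seeds, which are
residues mod `e`, `Q` rounds, further parameters in registers; `pre` is the list of those
parameters which form the first part of the feed. -/
structure ParF where
  m : ℕ × ℕ → ℕ
  N : ℕ × ℕ → ℕ
  e : ℕ × ℕ → ℕ
  Q : ℕ × ℕ → ℕ
  regs : List (ℕ × (ℕ × ℕ → ℕ))
  pre : List (ℕ × (ℕ × ℕ → ℕ))
  pt_m : PT ∅ m
  pt_N : PT ∅ N
  pt_e : PT ∅ e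
  pt_Q : PT ∅ Q
  pt_regs : ∀ g ∈ regs, PT ∅ g.2
  pre_mem : ∀ g ∈ pre, g ∈ regs
  nodup : (regs.map Prod.fst).Nodup
  place : ∀ i ∈ regs.map Prod.fst, (4 ≤ i ∧ i < 60) ∨ (80 ≤ i ∧ i < 100)

/-- The registers and arrays which a program for the queries may change. -/
structure CellOk (F : ParF) (Cell : Prog) : Prop where
  wr : ∀ i ∈ Cell.wr, i ∉ F.regs.map Prod.fst ∧ ((4 ≤ i ∧ i < 60) ∨ i = 67 ∨
    (80 ≤ i ∧ i < 100) ∨ (102 ≤ i ∧ i < 200))
  wa : ∀ j ∈ Cell.wa, 2 ≤ j ∧ j ≠ 3 ∧ j < 200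

variable {α : Type} [Enc α]

/-- The lengths. -/
def len2 (x y : List ℕ) : ℕ × ℕ := (x.length, y.length)

/-- The state of the strategy after `t` rounds. -/
def Strat.state (St : Strat α) (ans : ℕ → List ℕ) (feed : List ℕ) (t : ℕ) : α :=
  (oround St.ask St.upd ans)^[t] (St.start feed)

/-- The output of the strategy after `Q` rounds. -/
def Strat.fin (St : Strat α) (ans : ℕ → List ℕ) (Q : ℕ) (feed : List ℕ) : ℕ :=
  St.out (St.state ans feed Q)

/-- The first part of the feed. -/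
def ParF.pfx (F : ParF) (p : ℕ × ℕ) : List ℕ := F.pre.map fun g => g.2 p

/-- The feed. -/
def ParF.feed (F : ParF) (x y : List ℕ) (ρ : ℕ → ℕ) : List ℕ :=
  H873.feedG ρ 0 (F.e (len2 x y)) (F.N (len2 x y)) (F.pfx (len2 x y))

/-- What the program `Cell` may assume. -/
structure ParF.Pre (F : ParF) (x y : List ℕ) (σ : State) : Prop where
  a0 : σ.arr 0 = fun i => x.getD i 0
  a1 : σ.arr 1 = fun i => y.getD i 0
  r0 : σ.reg 0 = x.length
  r1 : σ.reg 1 = y.length
  regs : ∀ g ∈ F.regs, σ.reg g.1 = g.2 (len2 x y)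

/-- The size conditions for a run. -/
structure RunOk (St : Strat α) (F : ParF) (Cell : Prog) (E : Env) (x y : List ℕ)
    (ans : ℕ → List ℕ) (S ℓ Tc : ℕ) (V : ℕ → Prop) : Prop where
  hcell : ∀ σ q, F.Pre x y σ → σ.reg 60 = q → V q → Spec E σ Cell Tc (fun σ' =>
    σ'.reg 67 = (ans q).length ∧
      ∀ i, i < (ans q).length → σ'.arr 191 i = (ans q).getD i 0)
  hans : ∀ q, V q → q ≤ E.R ∧ (ans q).length ≤ ℓ ∧ ∀ v ∈ ans q, v < 2 ^ F.m (len2 x y)
  hx : x.length < 2 ^ F.m (len2 x y)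
  hy : y.length < 2 ^ F.m (len2 x y)
  hpre : ∀ v ∈ F.pfx (len2 x y), v < 2 ^ F.m (len2 x y)
  e0 : 0 < F.e (len2 x y)
  e1 : F.e (len2 x y) ≤ 2 ^ F.m (len2 x y)
  hask : ∀ t, t < F.Q (len2 x y) → V (St.ask (St.state ans (F.feed x y E.ρ) t))
  hsize : ∀ t, t < F.Q (len2 x y) →
    ∀ j ≤ (ans (St.ask (St.state ans (F.feed x y E.ρ) t))).length,
    esize (absorb St.upd ((ans (St.ask (St.state ans (F.feed x y E.ρ) t))).take j)
      (St.state ans (F.feed x y E.ρ) t)) ≤ S
  hsizeQ : esize (St.state ans (F.feed x y E.ρ) (F.Q (len2 x y))) ≤ S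
  hout : St.fin ans (F.Q (len2 x y)) (F.feed x y E.ρ) ≤ E.R
  mR : F.m (len2 x y) ≤ E.R
  NR : F.pre.length + F.N (len2 x y) ≤ E.R
  eR : F.e (len2 x y) ≤ E.R
  QR : F.Q (len2 x y) ≤ E.R
  regsR : ∀ g ∈ F.regs, g.2 (len2 x y) ≤ E.R
  lin : 10 * (x.length + y.length + 10) ≤ E.R

/-- The bound for the number of steps: `n` = sum of the lengths, `N` = length of the feed. -/
def mainCost (k₁ k₂ n m N Q S ℓ Tc : ℕ) : ℕ :=
  100 * (n + 10) + (4 * m + 10) ^ k₁ + N * (41 * m + 50) +
    Q * (Tc + (ℓ + 1) * (S + 2 * m + 10) ^ k₂) + (N * (2 * m + 1) + S + 2 * m + 10) ^ k₂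

/-- Push the two lengths on the memory word. -/
def lenProg : Prog :=
  .seq (.set 61 (eadd (eadd (.reg 0) (.reg 1)) (.lit 1)))
  (.seq (.set 60 (.reg 1))
  (.seq (pushNat 60 190 200 200)
  (.seq (.set 60 (.reg 0)) (pushNat 60 190 200 200))))

theorem mem_zero {σ : State} (h : σ.reg 200 = 0) : Mem σ L0 (0 : ℕ) := by
  refine ⟨?_, fun i hi => ?_⟩
  · show σ.reg 200 = _
    rw [h]; rfl
  · exfalso
    have : (enc (0 : ℕ)).length = 0 := rfl
    omega

theorem lt_two_pow_of_le {a b : ℕ} (h : a ≤ b) : a < 2 ^ b :=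
  lt_of_le_of_lt h Nat.lt_two_pow_self

theorem lenProg_spec {E : Env} {s : State} {lx ly : ℕ} (h0 : s.reg 0 = lx) (h1 : s.reg 1 = ly)
    (h200 : s.reg 200 = 0) (hR : 10 * (lx + ly + 10) ≤ E.R) :
    Spec E s lenProg (90 * (lx + ly + 2)) (fun s' => Mem s' L0 (lx, (ly, (0 : ℕ)))) := by
  have hbits : ∀ v, (Nat.bits v).length ≤ v := fun v => by
    rw [Nat.size_eq_bits_len]
    exact Nat.size_le.mpr (lt_two_pow_of_le le_rfl)
  have he : ∀ v : ℕ, esize v ≤ v := hbits
  unfold lenProg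
  refine (Spec.seq0 6 _ (fun σ' => σ' = s.setReg 61 (lx + ly + 1)) ?_ ?_).mono
    (c := 6 + (2 + ((41 * (lx + ly + 1) + 20) + (2 + (41 * (lx + ly + 1) + 20))))) (by omega)
    fun _ h => h
  · refine Spec.set0 (lx + ly + 1) rfl (by simp [h0, h1]) (fun _ => by omega) fun _ => rfl
  rintro s1 - rfl
  refine Spec.seq0 2 _ (fun σ' => σ' = (s.setReg 61 (lx + ly + 1)).setReg 60 ly) ?_ ?_
  · refine Spec.set0 ly rfl (by simp [h1]) (fun _ => by omega) fun _ => rfl
  rintro s2 - rfl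
  refine Spec.seq0 _ _ (fun σ' => Mem σ' L0 (ly, (0 : ℕ)))
    (push_spec (m := lx + ly + 1) (v := ly) (a := (0 : ℕ)) L0_ok (by decide) (by decide)
      (fun i hi => by show 200 ≠ 60 + i; omega) _ (by simp) (by simp)
      (lt_two_pow_of_le (by omega)) (mem_zero (by simp [h200])) ?_) ?_
  · have := he 0
    omega
  intro s3 hf3 h3
  have g0 : s3.reg 0 = lx := by
    rw [hf3.reg 0 (by simp [pushNat, splitBits, pushBits, Prog.wr])]
    simp [h0]
  have g61 : s3.reg 61 = lx + ly + 1 := by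
    rw [hf3.reg 61 (by simp [pushNat, splitBits, pushBits, Prog.wr])]
    simp
  refine Spec.seq0 2 _ (fun σ' => σ' = s3.setReg 60 lx) ?_ ?_
  · refine Spec.set0 lx rfl (by simp [g0]) (fun _ => by omega) fun _ => rfl
  rintro s4 - rfl
  refine push_spec (m := lx + ly + 1) (v := lx) (a := (ly, (0 : ℕ))) L0_ok (by decide) (by decide)
      (fun i hi => by show 200 ≠ 60 + i; omega) _ (by simp) (by simp [g61])
      (lt_two_pow_of_le (by omega)) (h3.congr (by simp [L0]) rfl) ?_
  rw [esize_pair]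
  have := he ly
  have := he 0
  omega

/-- The parameters and the registers in which they are kept. -/
def ParF.gs (F : ParF) : List (ℕ × (ℕ × ℕ × ℕ → ℕ)) :=
  ((61, F.m) :: (68, F.Q) :: (70, F.N) :: (71, F.e) :: F.regs).map
    fun g => (g.1, fun a => g.2 (a.1, a.2.1))

theorem ParF.gs_fst (F : ParF) :
    F.gs.map Prod.fst = 61 :: 68 :: 70 :: 71 :: F.regs.map Prod.fst := by
  simp [ParF.gs, Function.comp_def]

theorem ParF.pt_gs (F : ParF) : ∀ g ∈ F.gs, PT ∅ g.2 := by
  have key : ∀ g : ℕ × ℕ → ℕ, PT ∅ g → PT ∅ (fun a : ℕ × ℕ × ℕ => g (a.1, a.2.1)) := by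
    intro g hg
    fun_prop
  intro g hg
  simp only [ParF.gs, List.map_cons, List.mem_cons, List.mem_map] at hg
  rcases hg with rfl | rfl | rfl | rfl | ⟨g', hg', rfl⟩
  · exact key _ F.pt_m
  · exact key _ F.pt_Q
  · exact key _ F.pt_N
  · exact key _ F.pt_e
  · exact key _ (F.pt_regs g' hg')

/-- Load the next number of the feed. -/
def loadProg : Prog := .set 60 (.get 3 (.reg 66))

/-- Store the output. -/
def storeProg : Prog := .set 2 (.reg 60)

/-- The invariant of the window program. -/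
structure ParF.J (F : ParF) (x y : List ℕ) (f : List ℕ) (v t : ℕ) (σ : State) : Prop where
  pre : F.Pre x y σ
  r61 : σ.reg 61 = F.m (len2 x y)
  r68 : σ.reg 68 = F.Q (len2 x y)
  r69 : σ.reg 69 = F.pre.length + F.N (len2 x y)
  r70 : σ.reg 70 = 1
  a3 : ∀ i, i < f.length → σ.arr 3 i = f.getD i 0
  r2 : t ≠ 0 → σ.reg 2 = v

theorem ParF.Pre.congr {F : ParF} {x y : List ℕ} {σ σ' : State} (h : F.Pre x y σ)
    (ha0 : σ'.arr 0 = σ.arr 0) (ha1 : σ'.arr 1 = σ.arr 1) (h0 : σ'.reg 0 = σ.reg 0)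
    (h1 : σ'.reg 1 = σ.reg 1)
    (hr : ∀ i, (4 ≤ i ∧ i < 60) ∨ (80 ≤ i ∧ i < 100) → i ∈ F.regs.map Prod.fst →
      σ'.reg i = σ.reg i) : F.Pre x y σ' := by
  refine ⟨by rw [ha0, h.a0], by rw [ha1, h.a1], by rw [h0, h.r0], by rw [h1, h.r1],
    fun g hg => ?_⟩
  have hm : g.1 ∈ F.regs.map Prod.fst := List.mem_map_of_mem hg
  rw [hr g.1 (F.place g.1 hm) hm, h.regs g hg]

theorem ParF.J.congr {F : ParF} {x y f : List ℕ} {v t : ℕ} {σ σ' : State}
    (h : F.J x y f v t σ) (ha0 : σ'.arr 0 = σ.arr 0) (ha1 : σ'.arr 1 = σ.arr 1)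
    (ha3 : σ'.arr 3 = σ.arr 3)
    (hr : ∀ i, i < 4 ∨ (4 ≤ i ∧ i < 60 ∧ i ∈ F.regs.map Prod.fst) ∨ i = 61 ∨
      (68 ≤ i ∧ i ≤ 70) ∨ (80 ≤ i ∧ i < 100 ∧ i ∈ F.regs.map Prod.fst) →
      σ'.reg i = σ.reg i) : F.J x y f v t σ' := by
  refine ⟨h.pre.congr ha0 ha1 (hr 0 (by omega)) (hr 1 (by omega)) fun i hi hm => ?_,
    by rw [hr 61 (by omega), h.r61], by rw [hr 68 (by omega), h.r68],
    by rw [hr 69 (by omega), h.r69], by rw [hr 70 (by omega), h.r70],
    fun i hi => by rw [ha3, h.a3 i hi], fun ht => by rw [hr 2 (by omega), h.r2 ht]⟩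
  rcases hi with hi | hi
  · exact hr i (Or.inr (Or.inl ⟨hi.1, hi.2, hm⟩))
  · exact hr i (Or.inr (Or.inr (Or.inr (Or.inr ⟨hi.1, hi.2, hm⟩))))

theorem ParF.J.stable (F : ParF) (x y f : List ℕ) (v t W : ℕ) :
    Stable L0 60 190 W (F.J x y f v t) := by
  intro σ σ' hr ha h
  refine h.congr (ha 0 ?_) (ha 1 ?_) (ha 3 ?_) fun i hi => hr i ?_
  · unfold OArr L0; simp only; omega
  · unfold OArr L0; simp only; omega
  · unfold OArr L0; simp only; omega
  · unfold OReg L0
    simp only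
    omega

theorem map_getD_range (l : List ℕ) : (List.range l.length).map (fun i => l.getD i 0) = l := by
  apply List.ext_getElem
  · simp
  · intro i h1 h2
    simp [List.getD_eq_getElem?_getD, List.getElem?_eq_getElem h2]

theorem places_L0 (W : ℕ) : Places L0 60 190 191 W :=
  ⟨L0_ok, by decide, by decide, by decide, Or.inl (by decide), by decide, Or.inl (by decide),
    by decide⟩

/-- The main program: the exponent `k₂` depends on the strategy only. -/
theorem main_prog (St : Strat α) : ∃ k₂ : ℕ, ∀ (F : ParF) (Cell : Prog), CellOk F Cell →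
    ∃ (P : Prog) (k₁ : ℕ), ∀ (E : Env) (x y : List ℕ) (ans : ℕ → List ℕ)
    (S ℓ Tc : ℕ) (V : ℕ → Prop), RunOk St F Cell E x y ans S ℓ Tc V →
    (4 * F.m (len2 x y) + 10) ^ k₁ ≤ E.R →
    ((F.pre.length + F.N (len2 x y)) * (2 * F.m (len2 x y) + 1) + S +
      2 * F.m (len2 x y) + 10) ^ k₂ ≤ E.R →
    Spec E (State.init x y) P
      (mainCost k₁ k₂ (x.length + y.length) (F.m (len2 x y)) (F.pre.length + F.N (len2 x y))
        (F.Q (len2 x y)) S ℓ Tc)
      (fun s' => F.N (len2 x y) ≤ s'.coins ∧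
        s'.reg 2 = St.fin ans (F.Q (len2 x y)) (F.feed x y E.ρ)) := by
  obtain ⟨W₂, k₂, P2, hP2, hP2s⟩ := exists_window St.pt_start St.pt_ask St.pt_upd
    (out := fun p => St.out p.2) (St.pt_out.comp Vale.Agent.Lib.PolyTime.PT.snd')
  refine ⟨k₂ + 1, fun F Cell hC => ?_⟩
  obtain ⟨W₁, k₁, P1, hP1, hP1s⟩ := exists_reads 60 F.gs F.pt_gs
  refine ⟨.seq lenProg (.seq (P1 L0).derand (.seq (H873.feedProg2 (F.pre.map Prod.fst))
    (.seq (.set 69 (eadd (.reg 70) (.lit F.pre.length))) (.seq (.set 70 (.lit 1))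
      (P2 L0 60 190 191 loadProg Cell storeProg))))), k₁ + 1, ?_⟩
  intro E x y ans S ℓ Tc V hA hbR1 hbR2
  set m := F.m (len2 x y) with hm
  set N := F.N (len2 x y) with hN
  set e := F.e (len2 x y) with he
  set Q := F.Q (len2 x y) with hQ
  set c := F.pre.length with hc
  set X := (c + N) * (2 * m + 1) + S + 2 * m + 10 with hX
  have hlin := hA.lin
  have hX10 : 10 ≤ X := by omega
  have hXR : X ^ k₂ ≤ E.R := (Nat.pow_le_pow_right (by omega) (by omega)).trans hbR2
  set a : ℕ × ℕ × ℕ := (x.length, (y.length, (0 : ℕ))) with ha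
  have hsa : esize a + 2 ≤ 4 * m + 10 := by
    have h1 := esize_nat_le hA.hx
    have h2 := esize_nat_le hA.hy
    have h3 : esize (0 : ℕ) = 0 := rfl
    have h4 : esize a = 2 * esize x.length + (2 * esize y.length + esize (0 : ℕ) + 1) + 1 := by
      rw [ha, esize_pair, esize_pair]
    omega
  have hsaR : (esize a + 2) ^ k₁ ≤ E.R :=
    (Nat.pow_le_pow_left hsa k₁).trans ((Nat.pow_le_pow_right (by omega) (by omega)).trans hbR1)
  set f := (F.feed x y E.ρ).reverse with hf
  have hfl : f.length = c + N := by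
    rw [hf, List.length_reverse]
    simp [ParF.feed, ParF.pfx, hc, hN]
  have hfed : fed (fun t => f.getD t 0) (c + N) = F.feed x y E.ρ := by
    rw [fed_eq, ← hfl, map_getD_range, hf, List.reverse_reverse]
  have hfm' : ∀ v ∈ f, v < 2 ^ m := by
    intro v hmem
    rw [hf, List.mem_reverse, ParF.feed, H873.feedG, List.mem_append, List.mem_map] at hmem
    rcases hmem with h | ⟨i, -, h⟩
    · exact hA.hpre v h
    · rw [← h]
      exact lt_of_lt_of_le (Nat.mod_lt _ hA.e0) hA.e1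
  have hfm : ∀ t, t < c + N → f.getD t 0 < 2 ^ m := by
    intro t ht
    apply hfm'
    rw [List.getD_eq_getElem?_getD, List.getElem?_eq_getElem (by omega)]
    exact List.getElem_mem _
  have hstate : ∀ t, (oround St.ask St.upd ans)^[t] (St.start (fed (fun t => f.getD t 0)
      (c + N))) = St.state ans (F.feed x y E.ρ) t := by
    intro t
    rw [hfed]
    rfl
  have hgsreg : ∀ g ∈ F.regs, (g.1, fun a : ℕ × ℕ × ℕ => g.2 (a.1, a.2.1)) ∈ F.gs := by
    intro g hg
    unfold ParF.gs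
    rw [List.mem_map]
    exact ⟨g, by simp [hg], rfl⟩
  have hgs4 : ((61, fun a : ℕ × ℕ × ℕ => F.m (a.1, a.2.1)) : ℕ × (ℕ × ℕ × ℕ → ℕ)) ∈ F.gs ∧
      ((68, fun a : ℕ × ℕ × ℕ => F.Q (a.1, a.2.1)) : ℕ × (ℕ × ℕ × ℕ → ℕ)) ∈ F.gs ∧
      ((70, fun a : ℕ × ℕ × ℕ => F.N (a.1, a.2.1)) : ℕ × (ℕ × ℕ × ℕ → ℕ)) ∈ F.gs ∧
      ((71, fun a : ℕ × ℕ × ℕ => F.e (a.1, a.2.1)) : ℕ × (ℕ × ℕ × ℕ → ℕ)) ∈ F.gs := by
    simp [ParF.gs]
  have hgsR : ∀ g ∈ F.gs, g.2 a ≤ E.R := by
    intro g hg
    simp only [ParF.gs, List.map_cons, List.mem_cons, List.mem_map] at hg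
    rcases hg with rfl | rfl | rfl | rfl | ⟨g', hg', rfl⟩
    · exact hA.mR
    · exact hA.QR
    · have := hA.NR
      show F.N (len2 x y) ≤ E.R
      omega
    · exact hA.eR
    · exact hA.regsR g' hg'
  have hnd : (F.gs.map Prod.fst).Nodup := by
    rw [F.gs_fst]
    have h := F.place
    simp only [List.nodup_cons, List.mem_cons, not_or]
    refine ⟨⟨by decide, by decide, by decide, fun hh => ?_⟩, ⟨by decide, by decide, fun hh => ?_⟩,
      ⟨by decide, fun hh => ?_⟩, fun hh => ?_, F.nodup⟩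
    · have := h _ hh; omega
    · have := h _ hh; omega
    · have := h _ hh; omega
    · have := h _ hh; omega
  have hplace : ∀ i ∈ F.gs.map Prod.fst, i < L0.r ∧ i ≠ L0.c ∧ i ≠ L0.B ∧ i ≠ 60 ∧
      i ≠ 60 + 4 := by
    rw [F.gs_fst]
    intro i hi
    simp only [List.mem_cons] at hi
    unfold L0
    simp only
    rcases hi with h | h | h | h | h
    · omega
    · omega
    · omega
    · omega
    · have := F.place i h
      omega
  have hP1wr : ∀ i ∈ (P1 L0).wr, ¬ i < 4 := by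
    intro i hi
    have h1 := (hP1 L0).1 i hi
    rw [F.gs_fst] at h1
    simp only [List.mem_cons, L0] at h1
    by_cases h2 : i ∈ F.regs.map Prod.fst
    · have := F.place i h2
      omega
    · simp only [h2, or_false] at h1
      omega
  have hP1wa : ∀ j ∈ (P1 L0).wa, 200 ≤ j := by
    intro j hj
    have := (hP1 L0).2 j hj
    simp only [L0] at this
    omega
  -- the time
  have hT : 90 * (x.length + y.length + 2) + (2 * (esize a + 2) ^ k₁ + ((14 * N + 7 * c + 6) +
      (4 + (2 + ((c + N) * (3 + (41 * m + 22)) + Q * (Tc + (ℓ + 1) * (S + 2 * m + 10) ^ k₂) +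
        1 * (2 + (S + 2 * m + 10) ^ k₂) + X ^ k₂))))) ≤
      mainCost (k₁ + 1) (k₂ + 1) (x.length + y.length) m (c + N) Q S ℓ Tc := by
    unfold mainCost
    rw [← hX]
    have t1 : 2 * (esize a + 2) ^ k₁ ≤ (4 * m + 10) ^ (k₁ + 1) := by
      calc 2 * (esize a + 2) ^ k₁ ≤ (4 * m + 10) * (4 * m + 10) ^ k₁ :=
            Nat.mul_le_mul (by omega) (Nat.pow_le_pow_left hsa _)
        _ = (4 * m + 10) ^ (k₁ + 1) := by ring
    have t2 : (S + 2 * m + 10) ^ k₂ ≤ (S + 2 * m + 10) ^ (k₂ + 1) :=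
      Nat.pow_le_pow_right (by omega) (by omega)
    have t3 : Q * (Tc + (ℓ + 1) * (S + 2 * m + 10) ^ k₂) ≤
        Q * (Tc + (ℓ + 1) * (S + 2 * m + 10) ^ (k₂ + 1)) :=
      Nat.mul_le_mul_left _ (Nat.add_le_add_left (Nat.mul_le_mul_left _ t2) _)
    have t4 : (S + 2 * m + 10) ^ k₂ ≤ X ^ k₂ := Nat.pow_le_pow_left (by omega) _
    have t5 : 2 * X ^ k₂ ≤ X ^ (k₂ + 1) := by
      calc 2 * X ^ k₂ ≤ X * X ^ k₂ := Nat.mul_le_mul_right _ (by omega)
        _ = X ^ (k₂ + 1) := by ring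
    have t6 : (c + N) * (3 + (41 * m + 22)) + 14 * N + 7 * c ≤ (c + N) * (41 * m + 50) := by
      have : (c + N) * (41 * m + 50) = (c + N) * (3 + (41 * m + 22)) + (c + N) * 25 := by ring
      omega
    omega
  refine Spec.le (c := 90 * (x.length + y.length + 2) + (2 * (esize a + 2) ^ k₁ +
      ((14 * N + 7 * c + 6) + (4 + (2 + ((c + N) * (3 + (41 * m + 22)) +
        Q * (Tc + (ℓ + 1) * (S + 2 * m + 10) ^ k₂) +
        1 * (2 + (S + 2 * m + 10) ^ k₂) + X ^ k₂)))))) ?_ hT
  -- the two lengths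
  refine Spec.seq0 _ _ _ ((lenProg_spec (lx := x.length) (ly := y.length) rfl rfl rfl
    hlin).withCoins (by decide)) ?_
  rintro s1 hf1 ⟨c1, hm1⟩
  have hc1 : s1.coins = 0 := c1
  have g1 : ∀ i, i < 4 → s1.reg i = (State.init x y).reg i := fun i hi => hf1.reg i (by
    simp [lenProg, pushNat, splitBits, pushBits, Prog.wr]; omega)
  have b1 : ∀ i, i < 4 → s1.arr i = (State.init x y).arr i := fun i hi => hf1.arr i (by
    simp [lenProg, pushNat, splitBits, pushBits, Prog.wa]; omega)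
  -- the parameters
  refine Spec.seq0 _ _ _ (Spec.derand (hP1s L0 L0_ok (by decide) hnd hplace E.zero s1 a hm1
    hsaR hgsR)) ?_
  rintro s2 hf2 ⟨c2, c', -, hr2⟩
  have hc2 : s2.coins = 0 := by rw [c2, hc1]
  have g2 : ∀ i, i < 4 → s2.reg i = (State.init x y).reg i := fun i hi => by
    rw [hf2.reg i, g1 i hi]
    rw [Prog.derand_wr]
    exact fun h => hP1wr i h hi
  have b2 : ∀ i, i < 4 → s2.arr i = (State.init x y).arr i := fun i hi => by
    rw [hf2.arr i, b1 i hi]
    rw [Prog.derand_wa]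
    exact fun h => by have := hP1wa i h; omega
  have r61 : s2.reg 61 = m := hr2 _ hgs4.1
  have r68 : s2.reg 68 = Q := hr2 _ hgs4.2.1
  have r70 : s2.reg 70 = N := hr2 _ hgs4.2.2.1
  have r71 : s2.reg 71 = e := hr2 _ hgs4.2.2.2
  have rA : ∀ g ∈ F.regs, s2.reg g.1 = g.2 (len2 x y) := fun g hg => hr2 _ (hgsreg g hg)
  have hpre : (F.pre.map Prod.fst).map s2.reg = F.pfx (len2 x y) := by
    rw [List.map_map]
    exact List.map_congr_left fun g hg => rA g (F.pre_mem g hg)
  -- the feed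
  have hfp := H873.feedProg2_spec (s := s2) (N := N) (e := e) (rs := F.pre.map Prod.fst)
    r70 r71 hA.e0 (E := E) (by rw [List.length_map]; have := hA.NR; omega) (fun r hr => by
      rw [List.mem_map] at hr
      obtain ⟨g, hg, rfl⟩ := hr
      have := F.place g.1 (List.mem_map_of_mem (F.pre_mem g hg))
      omega)
  rw [hpre, List.length_map, hc2, Nat.zero_add] at hfp
  refine Spec.seq0 _ _ _ hfp ?_
  rintro s3 hf3 ⟨c3, hF3⟩
  have g3 : ∀ i, i ≠ 72 → i ≠ 73 → s3.reg i = s2.reg i := fun i h1 h2 => hf3.reg i fun h => by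
    rcases H873.feedProg2_wr _ i h with h | h <;> omega
  have b3 : ∀ i, i ≠ 3 → s3.arr i = s2.arr i := fun i h1 => hf3.arr i fun h => by
    have := H873.feedProg2_wa _ i h
    omega
  -- the window
  have hcE : c ≤ E.R := by have := hA.NR; omega
  refine Spec.seq0 4 _ (fun σ' => σ' = s3.setReg 69 (c + N)) ?_ ?_
  · intro hb
    have hev : (eadd (.reg 70) (.lit c)).eval s3 = c + N := by
      simp [g3 70 (by omega) (by omega), r70, Nat.add_comm]
    refine ⟨?_, ?_, by simp [Prog.time, Expr.cost, eadd], ?_⟩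
    · show s3.setReg 69 ((eadd (.reg 70) (.lit c)).eval s3) = _
      rw [hev]
    · show Bdd E (s3.setReg 69 ((eadd (.reg 70) (.lit c)).eval s3))
      rw [hev]
      exact hb.setReg 69 hA.NR
    · exact Expr.top_lt hb (eadd (.reg 70) (.lit c)) ⟨trivial, hcE⟩
        (by have := E.hS; simp [Expr.cost, eadd]; omega)
  rintro s4 - rfl
  refine Spec.seq0 2 _ (fun σ' => σ' = (s3.setReg 69 (c + N)).setReg 70 1) ?_ ?_
  · refine Spec.set0 1 rfl rfl (fun _ => by have := E.hR; omega) fun _ => rfl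
  rintro s5 - rfl
  have hJ0 : F.J x y f (St.fin ans Q (F.feed x y E.ρ)) 0
      ((s3.setReg 69 (c + N)).setReg 70 1) := by
    refine ⟨⟨?_, ?_, ?_, ?_, fun g hg => ?_⟩, ?_, ?_, ?_, ?_, fun i hi => ?_, fun h => absurd rfl h⟩
    · simp only [State.setReg_arr]
      rw [b3 0 (by omega), b2 0 (by omega)]; rfl
    · simp only [State.setReg_arr]
      rw [b3 1 (by omega), b2 1 (by omega)]; rfl
    · simp only [State.setReg_reg]
      rw [if_neg (by omega), if_neg (by omega), g3 0 (by omega) (by omega), g2 0 (by omega)]; rfl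
    · simp only [State.setReg_reg]
      rw [if_neg (by omega), if_neg (by omega), g3 1 (by omega) (by omega), g2 1 (by omega)]; rfl
    · have := F.place g.1 (List.mem_map_of_mem hg)
      simp only [State.setReg_reg]
      rw [if_neg (by omega), if_neg (by omega), g3 g.1 (by omega) (by omega), rA g hg]
    · simp only [State.setReg_reg]
      rw [if_neg (by omega), if_neg (by omega), g3 61 (by omega) (by omega), r61]
    · simp only [State.setReg_reg]
      rw [if_neg (by omega), if_neg (by omega), g3 68 (by omega) (by omega), r68]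
    · simp only [State.setReg_reg]
      rw [if_neg (by omega), if_pos trivial]
    · simp only [State.setReg_reg]
      rw [if_pos trivial]
    · simp only [State.setReg_arr]
      exact hF3 i hi
  have hcell_wr : ∀ i ∈ Cell.wr, ¬ (i < 4 ∨ (4 ≤ i ∧ i < 60 ∧ i ∈ F.regs.map Prod.fst) ∨
      i = 61 ∨ (68 ≤ i ∧ i ≤ 70) ∨ (80 ≤ i ∧ i < 100 ∧ i ∈ F.regs.map Prod.fst)) := by
    intro i hi
    obtain ⟨h1, h2⟩ := hC.wr i hi
    simp only [h1, and_false, false_or, or_false]
    omega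
  have hJset : ∀ t (σ : State) v, F.J x y f (St.fin ans Q (F.feed x y E.ρ)) t σ →
      F.J x y f (St.fin ans Q (F.feed x y E.ρ)) t (σ.setReg 60 v) := fun t σ v h =>
    h.congr rfl rfl rfl fun i hi => by rw [State.setReg_reg, if_neg (by omega)]
  have hmain := hP2s L0 60 190 191 (places_L0 W₂) E
    (fun t => F.J x y f (St.fin ans Q (F.feed x y E.ρ)) t)
    (fun t => ParF.J.stable F x y f _ t W₂) m S ℓ (c + N) 1 Q 3 Tc 2 (fun t => f.getD t 0) V
    ans loadProg Cell storeProg (by decide) (by decide)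
    (fun h => by have := (hC.wr _ h).2; simp only [L0] at this; omega)
    (fun h => by have := hC.wa _ h; simp only [L0] at this; omega)
    (by decide) (by decide) (fun t σ h => h.r61) (fun σ h => h.r68) (fun σ h => h.r69)
    (fun σ h => h.r70) hfm ?_ hA.hans ?_ ?_ ?_ ?_ ?_ ?_ ?_ ?_
    ((s3.setReg 69 (c + N)).setReg 70 1) hJ0
  · refine hmain.coinsLe.mono le_rfl ?_
    rintro s' ⟨h1, h2⟩
    refine ⟨?_, h2.r2 (by omega)⟩
    have : ((s3.setReg 69 (c + N)).setReg 70 1).coins = s3.coins := rfl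
    rw [this, c3] at h1
    exact h1
  · -- load
    intro σ t hJ h66 ht
    refine (Spec.set0 (f.getD t 0) rfl ?_ (fun hb => ?_) fun _ => ⟨hJset 0 σ _ hJ, by simp⟩).le
      (by simp [Expr.cost])
    · have h66' : σ.reg 66 = t := h66
      simp [h66', hJ.a3 t (by omega)]
    · have := hb.arr 3 (by omega) t
      rwa [hJ.a3 t (by omega)] at this
  · -- cell
    intro σ q hJ h60 hV
    refine ((hA.hcell σ q hJ.pre h60 hV).withFrame).mono le_rfl ?_
    rintro σ' ⟨hf, h1, h2⟩
    refine ⟨hJ.congr (hf.arr 0 fun h => ?_) (hf.arr 1 fun h => ?_) (hf.arr 3 fun h => ?_)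
      (fun i hi => hf.reg i fun h => hcell_wr i h hi), h1, h2⟩
    · have := hC.wa _ h; omega
    · have := hC.wa _ h; omega
    · have := hC.wa _ h; omega
  · intro t ht
    rw [hstate]
    exact hA.hask t ht
  · intro t ht
    rw [hstate]
    exact hA.hsize t ht
  · rw [hstate]
    exact hA.hsizeQ
  · exact Nat.one_le_two_pow
  · intro t _
    rw [hstate]
    exact hA.hout
  · -- store
    intro σ t hJ h60 _ ht
    obtain rfl : t = 0 := by omega
    rw [hstate] at h60
    have h60' : (Expr.reg 60).eval σ = St.fin ans Q (F.feed x y E.ρ) := h60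
    refine (Spec.set0 (St.fin ans Q (F.feed x y E.ρ)) rfl h60' (fun _ => hA.hout)
      fun _ => ?_).le (by simp [Expr.cost])
    refine ⟨hJ.pre.congr rfl rfl (by simp) (by simp) fun i hi _ => by
        rw [State.setReg_reg, if_neg (by omega)], ?_, ?_, ?_, ?_, hJ.a3, fun _ => by simp⟩
    · rw [State.setReg_reg, if_neg (by omega)]; exact hJ.r61
    · rw [State.setReg_reg, if_neg (by omega)]; exact hJ.r68
    · rw [State.setReg_reg, if_neg (by omega)]; exact hJ.r69
    · rw [State.setReg_reg, if_neg (by omega)]; exact hJ.r70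
  · exact hXR

end Vale.Agent.P315.RAM
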