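import Vale.Agent.P315.RAM.Sim

/-!
# Polynomial time functions on the word RAM: the block

`exists_fun`: every polynomial time function of the library is computed by a block of the word RAM
in polynomial time.
-/

set_option autoImplicit false

namespace Vale.Agent.P315.RAM

open Vale.Agent.Lib.PolyTime (Word pb pr FP PT Enc enc esize)

variable {E : Env}

theorem Spec.set1 {s : State} {i c : ℕ} {e : Expr} {Q : State → Prop} (v : ℕ)
    (hs : e.small = true) (hc : e.cost + 1 ≤ c) (hv : e.eval s = v) (hvR : Bdd E s → v ≤ E.R)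
    (hQ : Bdd E s → Q (s.setReg i v)) : Spec E s (.set i e) c Q :=
  (Spec.set0 v hs hv hvR hQ).le hc

theorem Spec.put1 {s : State} {j c : ℕ} {e e' : Expr} {Q : State → Prop} (u v : ℕ)
    (hj : 2 ≤ j) (hs : e.small = true) (hs' : e'.small = true)
    (hc : e.cost + e'.cost + 1 ≤ c) (hu : e.eval s = u)
    (hv : e'.eval s = v) (hvR : Bdd E s → v ≤ E.R) (hQ : Bdd E s → Q (s.setArr j u v)) :
    Spec E s (.put j e e') c Q :=
  (Spec.put0 u v hj hs hs' hu hv hvR hQ).le hc

theorem Spec.ite1 {s : State} {e : Expr} {p q : Prog} {a c : ℕ} {Q : State → Prop}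
    (hs : e.small = true) (hc : e.cost + 1 + a ≤ c) (h0 : e.eval s = 0 → Spec E s q a Q)
    (h1 : e.eval s ≠ 0 → Spec E s p a Q) : Spec E s (.ite e p q) c Q :=
  (Spec.ite0 hs h0 h1).le hc

/-- Clear the heights of the stacks `1, …, k`. -/
def clr (L : Lay) : ℕ → Prog
  | 0 => .set L.c (.lit 0)
  | k + 1 => .seq (clr L k) (.set (L.r + (k + 1)) (.lit 0))

/-- Put `(height of stack 0 + 2) ^ k` into register `B`. -/
def pw (L : Lay) : ℕ → Prog
  | 0 => .set L.B (.lit 1)
  | k + 1 => .seq (pw L k) (.set L.B (emul (.reg L.B) (eadd (.reg L.r) (.lit 2))))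

theorem clr_wr (L : Lay) (k : ℕ) : ∀ i ∈ (clr L k).wr, i = L.c ∨ (L.r < i ∧ i ≤ L.r + k) := by
  induction k with
  | zero => intro i hi; left; simpa [clr, Prog.wr] using hi
  | succ k ih =>
    intro i hi
    simp only [clr, Prog.wr, List.mem_append, List.mem_singleton] at hi
    rcases hi with hi | hi
    · rcases ih i hi with h | h
      · exact Or.inl h
      · right; omega
    · right; omega

theorem clr_wa (L : Lay) (k : ℕ) : (clr L k).wa = [] := by
  induction k with
  | zero => rfl
  | succ k ih => simp [clr, Prog.wa, ih]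

theorem pw_wr (L : Lay) (k : ℕ) : ∀ i ∈ (pw L k).wr, i = L.B := by
  induction k with
  | zero => intro i hi; simpa [pw, Prog.wr] using hi
  | succ k ih =>
    intro i hi
    simp only [pw, Prog.wr, List.mem_append, List.mem_singleton] at hi
    rcases hi with hi | hi
    · exact ih i hi
    · exact hi

theorem pw_wa (L : Lay) (k : ℕ) : (pw L k).wa = [] := by
  induction k with
  | zero => rfl
  | succ k ih => simp [pw, Prog.wa, ih]

theorem clr_spec (L : Lay) (k : ℕ) (σ : State) :
    Spec E σ (clr L k) (2 * k + 2) (fun σ' => ∀ i, 1 ≤ i → i ≤ k → σ'.reg (L.r + i) = 0) := by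
  induction k with
  | zero =>
    exact Spec.set0 0 rfl rfl (fun _ => by omega) fun _ i h1 h2 => by omega
  | succ k ih =>
    refine (Spec.seq0 (2 * k + 2) 2 _ ih fun σ' _ h => ?_).le (by omega)
    refine Spec.set0 0 rfl rfl (fun _ => by omega) fun _ i h1 h2 => ?_
    rw [State.setReg_reg]
    split_ifs with h3
    · rfl
    · exact h i h1 (by omega)

theorem pw_spec (L : Lay) (hL : L.Ok) (k : ℕ) (σ : State)
    (hR : (σ.reg L.r + 2) ^ k ≤ E.R) :
    Spec E σ (pw L k) (6 * k + 2) (fun σ' => σ'.reg L.B = (σ.reg L.r + 2) ^ k) := by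
  have hBr : L.r ≠ L.B := by have := hL.B; omega
  induction k with
  | zero =>
    refine Spec.set0 1 rfl rfl (fun _ => by have := E.hR; omega) fun _ => ?_
    simp
  | succ k ih =>
    have h1 : (σ.reg L.r + 2) ^ k ≤ (σ.reg L.r + 2) ^ (k + 1) :=
      Nat.pow_le_pow_right (by omega) (by omega)
    refine (Spec.seq0 (6 * k + 2) 6 _ (ih (h1.trans hR)) fun σ' hfr h => ?_).le (by omega)
    have h2 : σ'.reg L.r = σ.reg L.r := hfr.reg _ fun h3 => hBr (pw_wr L k _ h3)
    refine Spec.set0 ((σ.reg L.r + 2) ^ (k + 1)) rfl ?_ (fun _ => hR) fun _ => ?_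
    · simp [h, h2, pow_succ]
    · simp

/-- The whole block: clear the working stacks, compute the bound for the number of steps, simulate
the stack program. -/
def block (p : SProg) (W c : ℕ) (L : Lay) : Prog := .seq (clr L W) (.seq (pw L c) (tr L p))

/-- What the block may change: the registers `B`, `c`, `r, …, r + W` and the arrays
`a, …, a + W`. -/
structure Fits (P : Lay → Prog) (W : ℕ) : Prop where
  wr : ∀ L : Lay, ∀ i ∈ (P L).wr, i = L.c ∨ i = L.B ∨ (L.r ≤ i ∧ i ≤ L.r + W)
  wa : ∀ L : Lay, ∀ i ∈ (P L).wa, L.a ≤ i ∧ i ≤ L.a + W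

/-- Every polynomial time function on words is computed by a block of the word RAM: the input is
on stack `0`, the output is written on stack `1`, in polynomial time. -/
theorem exists_fun {f : Word → Word} (hf : FP ∅ f) :
    ∃ (W k : ℕ) (P : Lay → Prog), 1 ≤ W ∧ Fits P W ∧
      ∀ (L : Lay), L.Ok → ∀ (E : Env) (σ : State) (x : Word), Holds σ L.a L.r x →
        (x.length + 2) ^ k ≤ E.R →
        Spec E σ (P L) ((x.length + 2) ^ k)
          (fun σ' => Holds σ' L.a L.r x ∧ Holds σ' (L.a + 1) (L.r + 1) (f x)) := by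
  obtain ⟨p, w, c, hw, hp⟩ := hf
  obtain ⟨W, hW⟩ := exists_below p
  set W' := max w W with hW'
  have hpW : below (W' + 1) p := hW.mono (by omega)
  obtain ⟨k, hk⟩ := cst_le p
  -- the exponent of the final bound
  have hPB : Vale.Agent.Lib.PolyTime.PB (fun n => (2 * W' + 2) + ((6 * c + 2) +
      ((n + 2) ^ c + 2) ^ k) + (n + (n + 2) ^ c)) :=
    ((Vale.Agent.Lib.PolyTime.PB.const _).add ((Vale.Agent.Lib.PolyTime.PB.const _).add
      (((Vale.Agent.Lib.PolyTime.PB.pb c).add (Vale.Agent.Lib.PolyTime.PB.const 2)).pow k))).add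
      (Vale.Agent.Lib.PolyTime.PB.id.add (Vale.Agent.Lib.PolyTime.PB.pb c))
  obtain ⟨K, hK⟩ := hPB
  refine ⟨W', K, block p W' c, by omega, ⟨?_, ?_⟩, ?_⟩
  · intro L i hi
    simp only [block, Prog.wr, List.mem_append] at hi
    rcases hi with hi | hi | hi
    · rcases clr_wr L W' i hi with h | h
      · exact Or.inl h
      · right; right; omega
    · exact Or.inr (Or.inl (pw_wr L c i hi))
    · rcases tr_wr L (W' + 1) p hpW i hi with h | h
      · exact Or.inl h
      · right; right; omega
  · intro L i hi
    simp only [block, Prog.wa, List.mem_append, clr_wa, pw_wa, List.not_mem_nil, false_or] at hi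
    have := tr_wa L (W' + 1) p hpW i hi
    omega
  · intro L hL E σ x hx hR
    have hKx : (2 * W' + 2) + ((6 * c + 2) + ((x.length + 2) ^ c + 2) ^ k) +
        (x.length + (x.length + 2) ^ c) ≤ (x.length + 2) ^ K := hK x.length
    have hlen := hx.len
    have hB1 : (x.length + 2) ^ c ≤ E.R := by
      have : (x.length + 2) ^ c ≤ (x.length + 2) ^ K := by
        refine le_trans ?_ hKx
        omega
      omega
    refine (Spec.seq0 (2 * W' + 2) ((6 * c + 2) + ((x.length + 2) ^ c + 2) ^ k) _
      (clr_spec L W' σ) fun σ1 hfr1 h1 => ?_).mono ?_ fun σ' h => h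
    · have hr1 : σ1.reg L.r = σ.reg L.r := hfr1.reg _ fun h3 => by
        have h4 := clr_wr L W' _ h3
        have := hL.c
        omega
      have ha1 : σ1.arr L.a = σ.arr L.a := hfr1.arr _ (by rw [clr_wa]; simp)
      refine Spec.seq0 (6 * c + 2) _ _ (pw_spec L hL c σ1 (by rw [hr1, hlen]; exact hB1))
        fun σ2 hfr2 h2 => ?_
      rw [hr1, hlen] at h2
      have hreg2 : ∀ i, L.r ≤ i → σ2.reg i = σ1.reg i := fun i hi => hfr2.reg _ fun h3 => by
        have h4 := pw_wr L c _ h3
        have := hL.B
        omega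
      have harr2 : ∀ i, σ2.arr i = σ1.arr i := fun i => hfr2.arr _ (by rw [pw_wa]; simp)
      -- the start configuration of the stack machine
      set s : ℕ → Word := fun i => if i = 0 then x else [] with hs
      obtain ⟨t, ht, he⟩ := hp s (fun i h1 _ => by rw [hs]; simp; intro h; omega)
      have hs0 : s 0 = x := by simp [hs]
      rw [hs0] at ht he
      have hrel : Rel (W' + 1) L s σ2 := by
        intro i hi
        by_cases hi0 : i = 0
        · subst hi0
          simp only [Nat.add_zero, hs0]
          refine hx.congr ?_ ?_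
          · rw [hreg2 _ le_rfl, hr1]
          · rw [harr2, ha1]
        · have hsi : s i = [] := by simp [hs, hi0]
          rw [hsi]
          refine ⟨?_, fun m hm => by simp at hm⟩
          rw [hreg2 _ (by omega), h1 i (by omega) (by omega)]
          rfl
      have htB : t ≤ (x.length + 2) ^ c := ht
      refine (sim (E := E) hL hB1 p hpW s t _ he σ2 hrel h2 htB fun i hi => ?_).mono
        (hk _) fun σ' h' => ⟨?_, ?_⟩
      · have : (s i).length ≤ x.length := by
          simp only [hs]; split_ifs <;> simp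
        have h5 : x.length + (x.length + 2) ^ c ≤ (x.length + 2) ^ K := by
          refine le_trans ?_ hKx
          omega
        omega
      · have := h' 0 (by omega)
        rw [Function.update_of_ne (by omega), hs0] at this
        exact this
      · have := h' 1 (by omega)
        rwa [Function.update_self] at this
    · refine le_trans ?_ hKx
      omega

end Vale.Agent.P315.RAM
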