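import Vale.Agent.P315.RAM.Num

/-!
# A typed memory word on the word RAM

The layout `L` keeps the code of an object `a : α` as a word on stack `0` (array `L.a`, register
`L.r`). Operations: apply a polynomial time function, push a number, read a number.
-/

set_option autoImplicit false

namespace Vale.Agent.P315.RAM

open Vale.Agent.Lib.PolyTime (Word pb pr FP PT Enc enc esize)

variable {E : Env}

/-- The memory word holds the object `a`. -/
def Mem {α : Type*} [Enc α] (σ : State) (L : Lay) (a : α) : Prop := Holds σ L.a L.r (enc a)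

theorem Mem.congr {α : Type*} [Enc α] {σ σ' : State} {L : Lay} {a : α} (h : Mem σ L a)
    (hr : σ'.reg L.r = σ.reg L.r) (ha : σ'.arr L.a = σ.arr L.a) : Mem σ' L a :=
  Holds.congr h hr ha

theorem Mem.frame {α : Type*} [Enc α] {σ σ' : State} {L : Lay} {a : α} {wr wa : List ℕ}
    (h : Mem σ L a) (hf : Frame σ σ' wr wa) (hr : L.r ∉ wr) (ha : L.a ∉ wa) : Mem σ' L a :=
  h.congr (hf.reg _ hr) (hf.arr _ ha)

/-- Copy stack `1` to stack `0`. -/
def back (L : Lay) : Prog :=
  .seq (.set L.r (.reg (L.r + 1)))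
    (.loop L.c (.reg L.r) (.put L.a (.reg L.c) (.get (L.a + 1) (.reg L.c))))

theorem back_spec {L : Lay} (hL : L.Ok) {w : Word} (σ : State)
    (hw : Holds σ (L.a + 1) (L.r + 1) w) :
    Spec E σ (back L) (6 * w.length + 4) (fun σ' => Holds σ' L.a L.r w) := by
  have hcr : L.c ≠ L.r := by have := hL.c; omega
  have hlen := hw.len
  refine (Spec.seq0 2 (2 + w.length * (4 + 2)) (fun σ' => σ' = σ.setReg L.r w.length)
    ?_ ?_).le (by omega)
  · refine Spec.set0 w.length rfl hlen (fun hb => ?_) fun _ => rfl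
    have := hb.reg (L.r + 1)
    omega
  rintro σ1 - rfl
  refine Spec.mono (Spec.loop0 (e := .reg L.r) w.length 4 (fun t σ' => σ'.reg L.r = w.length ∧
    σ'.arr (L.a + 1) = σ.arr (L.a + 1) ∧ ∀ i, i < t → σ'.arr L.a i = σ.arr (L.a + 1) i) rfl
    ?_ (fun hb => ?_) (fun _ => ⟨by simp, rfl, fun i hi => absurd hi (Nat.not_lt_zero i)⟩)
    ?_) (by simp [Expr.cost]) ?_
  · simp
  · have := hb.reg L.r
    simpa using this
  · rintro t ht σ' hb' - ⟨i1, i2, i3⟩
    refine Spec.put1 t (σ.arr (L.a + 1) t) hL.a rfl ?_ (by simp [Expr.cost]) (by simp) ?_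
      (fun hb => ?_) fun _ => ⟨?_, ?_, ?_⟩
    · have := hL.a
      simp [Expr.small, Expr.okb, Expr.cost]; omega
    · simp [i2]
    · have := hb.arr (L.a + 1) (by have := hL.a; omega) t
      rwa [State.setReg_arr, i2] at this
    · simp [i1, hcr.symm]
    · rw [State.setArr_arr_ne _ _ _ (by omega), State.setReg_arr, i2]
    · intro i hi
      simp only [State.setArr_arr, State.setReg_arr, true_and]
      split_ifs with h
      · rw [h]
      · exact i3 i (by omega)
  · rintro σ' ⟨i1, i2, i3⟩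
    exact ⟨i1, fun m hm => by rw [i3 m hm]; exact hw.val m hm⟩

/-- What an operation on the memory word may change. -/
structure Small (P : Prog) (L : Lay) (W : ℕ) : Prop where
  wr : ∀ i ∈ P.wr, i = L.c ∨ i = L.B ∨ (L.r ≤ i ∧ i ≤ L.r + W)
  wa : ∀ i ∈ P.wa, L.a ≤ i ∧ i ≤ L.a + W

theorem Small.mono {P : Prog} {L : Lay} {W W' : ℕ} (h : Small P L W) (hW : W ≤ W') :
    Small P L W' :=
  ⟨fun i hi => by have := h.wr i hi; omega, fun i hi => by have := h.wa i hi; omega⟩

/-- Apply a polynomial time function to the memory word. -/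
theorem exists_apply {α β : Type*} [Enc α] [Enc β] {f : α → β} (hf : PT ∅ f) :
    ∃ (W k : ℕ) (P : Lay → Prog), (∀ L, Small (P L) L W) ∧
      ∀ (L : Lay), L.Ok → ∀ (E : Env) (σ : State) (a : α), Mem σ L a →
        (esize a + 2) ^ k ≤ E.R →
        Spec E σ (P L) ((esize a + 2) ^ k) (fun σ' => Mem σ' L (f a)) := by
  obtain ⟨g, hg, hgf⟩ := hf
  obtain ⟨W, k, P, hW1, hFit, hP⟩ := exists_fun hg
  obtain ⟨T, hT, -, hgT⟩ := hg.length_le
  have hPB : Vale.Agent.Lib.PolyTime.PB (fun n => (n + 2) ^ k + (6 * T n + 4)) :=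
    (Vale.Agent.Lib.PolyTime.PB.pb k).add (((Vale.Agent.Lib.PolyTime.PB.const 6).mul hT).add
      (Vale.Agent.Lib.PolyTime.PB.const 4))
  obtain ⟨K, hK⟩ := hPB
  refine ⟨W, K, fun L => .seq (P L) (back L), fun L => ⟨?_, ?_⟩, ?_⟩
  · intro i hi
    simp only [Prog.wr, List.mem_append, back] at hi
    rcases hi with hi | hi
    · exact hFit.wr L i hi
    · simp at hi
      omega
  · intro i hi
    simp only [Prog.wa, List.mem_append, back] at hi
    rcases hi with hi | hi
    · exact hFit.wa L i hi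
    · simp at hi
      omega
  · intro L hL E σ a ha hR
    have hKa : (esize a + 2) ^ k + (6 * T (esize a) + 4) ≤ (esize a + 2) ^ K := hK (esize a)
    have hlen : (enc (f a)).length ≤ T (esize a) := by
      have := hgT (enc a)
      rwa [hgf] at this
    refine (Spec.seq0 ((esize a + 2) ^ k) (6 * (enc (f a)).length + 4) _
      (hP L hL E σ (enc a) ha (by simp only [esize] at hKa hR ⊢; omega)) fun σ1 _ h1 => ?_).le
      (by omega)
    refine (back_spec hL σ1 ?_).mono le_rfl fun σ' h => h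
    have := h1.2
    rwa [hgf] at this

/-- Read a number computed from the memory word into register `z`. -/
theorem exists_read {α : Type*} [Enc α] {g : α → ℕ} (hf : PT ∅ g) :
    ∃ (W k : ℕ) (P : Lay → ℕ → Prog), (∀ L z, (∀ i ∈ (P L z).wr, i = z ∨ i = z + 4 ∨ i = L.c ∨
      i = L.B ∨ (L.r ≤ i ∧ i ≤ L.r + W)) ∧ ∀ i ∈ (P L z).wa, L.a ≤ i ∧ i ≤ L.a + W) ∧
      ∀ (L : Lay), L.Ok → ∀ z : ℕ, (L.r + 1 < z ∨ z + 4 < L.r) → ∀ (E : Env) (σ : State) (a : α),
        Mem σ L a → (esize a + 2) ^ k ≤ E.R → g a ≤ E.R →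
        Spec E σ (P L z) ((esize a + 2) ^ k) (fun σ' => Mem σ' L a ∧ σ'.reg z = g a) := by
  obtain ⟨f, hg, hgf⟩ := hf
  obtain ⟨W, k, P, hW1, hFit, hP⟩ := exists_fun hg
  obtain ⟨T, hT, -, hgT⟩ := hg.length_le
  have hPB : Vale.Agent.Lib.PolyTime.PB (fun n => (n + 2) ^ k + (9 * T n + 4)) :=
    (Vale.Agent.Lib.PolyTime.PB.pb k).add (((Vale.Agent.Lib.PolyTime.PB.const 9).mul hT).add
      (Vale.Agent.Lib.PolyTime.PB.const 4))
  obtain ⟨K, hK⟩ := hPB
  refine ⟨W, K, fun L z => .seq (P L) (readNat z (L.a + 1) (L.r + 1)), fun L z => ⟨?_, ?_⟩, ?_⟩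
  · intro i hi
    simp only [Prog.wr, List.mem_append, readNat] at hi
    rcases hi with hi | hi
    · have := hFit.wr L i hi
      omega
    · simp at hi
      omega
  · intro i hi
    simp only [Prog.wa, List.mem_append, readNat] at hi
    rcases hi with hi | hi
    · exact hFit.wa L i hi
    · simp at hi
  · intro L hL z hz E σ a ha hR hgR
    have hKa : (esize a + 2) ^ k + (9 * T (esize a) + 4) ≤ (esize a + 2) ^ K := hK (esize a)
    have hlen : (enc (g a)).length ≤ T (esize a) := by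
      have := hgT (enc a)
      rwa [hgf] at this
    refine (Spec.seq0 ((esize a + 2) ^ k) (9 * (g a).bits.length + 4) _
      (hP L hL E σ (enc a) ha (by simp only [esize] at hKa hR ⊢; omega)) fun σ1 _ h1 => ?_).le
      (by have : (enc (g a)).length = (g a).bits.length := rfl
          omega)
    have h2 : Holds σ1 (L.a + 1) (L.r + 1) (g a).bits := by
      have := h1.2
      rwa [hgf] at this
    refine ((readNat_spec (z := z) (fun i hi => by omega) (by have := hL.a; omega) σ1 h2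
      hgR).withFrame).mono le_rfl fun σ' h => ⟨?_, h.2⟩
    refine Mem.frame (a := a) h1.1 h.1 ?_ ?_
    · simp [readNat, Prog.wr]
      omega
    · simp [readNat, Prog.wa]

/-- Push the number in register `z` on the memory word. -/
theorem push_spec {α : Type*} [Enc α] {L : Lay} (hL : L.Ok) {z y v m : ℕ} {a : α} (hy : 2 ≤ y)
    (hya : y ≠ L.a) (hk : ∀ i, i ≤ 4 → L.r ≠ z + i) (σ : State) (hv : σ.reg z = v)
    (hm : σ.reg (z + 1) = m) (hvm : v < 2 ^ m) (ha : Mem σ L a)
    (hR : esize a + 2 * m + 1 ≤ E.R) :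
    Spec E σ (pushNat z y L.a L.r) (41 * m + 20) (fun σ' => Mem σ' L (v, a)) :=
  pushNat_spec hy hL.a hya hk σ hv hm hvm ha hR

theorem esize_pair {α β : Type*} [Enc α] [Enc β] (a : α) (b : β) :
    esize (a, b) = 2 * esize a + esize b + 1 := by
  unfold esize
  rw [Vale.Agent.Lib.PolyTime.enc_pair, Vale.Agent.Lib.PolyTime.length_pr]

theorem esize_nat_le {v m : ℕ} (h : v < 2 ^ m) : esize v ≤ m := by
  show v.bits.length ≤ m
  rw [Nat.size_eq_bits_len]
  exact Nat.size_le.mpr h

end Vale.Agent.P315.RAM
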