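import Vale.Agent.P315.RAM.Fun
import Vale.Agent.Lib.PolyTime.Bitwise

/-!
# Numbers and stacks on the word RAM

`pushNat`: push the code of a number in front of a stack (list entry); `readNat`: read a number
from a stack.
-/

set_option autoImplicit false

namespace Vale.Agent.P315.RAM

open Vale.Agent.Lib.PolyTime (Word pb pr FP PT Enc enc esize)

variable {E : Env}

/-- Split the number in register `z` into its bits: bit `i` goes to entry `i` of array `y`, the
number of bits to register `z + 2`; register `z + 1` holds an upper bound for the number of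
bits. -/
def splitBits (z y : ℕ) : Prog :=
  .seq (.set (z + 2) (.lit 0))
  (.seq (.set (z + 3) (.reg z))
    (.loop (z + 4) (.reg (z + 1)) (.ite (.reg (z + 3))
      (.seq (.put y (.reg (z + 2)) (emod (.reg (z + 3)) (.lit 2)))
      (.seq (.set (z + 2) (eadd (.reg (z + 2)) (.lit 1)))
        (.set (z + 3) (ediv (.reg (z + 3)) (.lit 2)))))
      (.set (z + 4) (.lit 0)))))

/-- Push the bits, each preceded by `1`, on the stack (array `j`, register `k`). -/
def pushBits (z y j k : ℕ) : Prog :=
  .loop (z + 4) (.reg (z + 2))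
    (.seq (.put j (.reg k) (.get y (esub (esub (.reg (z + 2)) (.lit 1)) (.reg (z + 4)))))
    (.seq (.put j (eadd (.reg k) (.lit 1)) (.lit 1))
      (.set k (eadd (.reg k) (.lit 2)))))

/-- Push the number in register `z` as a list entry on the stack (array `j`, register `k`). -/
def pushNat (z y j k : ℕ) : Prog :=
  .seq (splitBits z y)
  (.seq (.put j (.reg k) (.lit 0))
  (.seq (.set k (eadd (.reg k) (.lit 1)))
    (pushBits z y j k)))

/-- Read the number on the stack (array `j`, register `k`) into register `z`. -/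
def readNat (z j k : ℕ) : Prog :=
  .seq (.set z (.lit 0))
    (.loop (z + 4) (.reg k) (.set z (eadd (emul (.lit 2) (.reg z)) (.get j (.reg (z + 4))))))

theorem testBit_toNat (v i : ℕ) : (v.testBit i).toNat = v / 2 ^ i % 2 := by
  rw [Nat.testBit_eq_decide_div_mod_eq]
  have := Nat.mod_two_eq_zero_or_one (v / 2 ^ i)
  rcases this with h | h <;> simp [h]

theorem splitBits_spec {z y v m : ℕ} (hy : 2 ≤ y) (σ : State) (hv : σ.reg z = v)
    (hm : σ.reg (z + 1) = m) (hvm : v < 2 ^ m) :
    Spec E σ (splitBits z y) (22 * m + 10) (fun σ' => σ'.reg (z + 2) = v.bits.length ∧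
      ∀ i, i < v.bits.length → σ'.arr y i = (v.bits.getD i false).toNat) := by
  have hsz : v.bits.length = v.size := (Nat.size_eq_bits_len v)
  have hvmS : v.size ≤ m := Nat.size_le.mpr hvm
  refine (Spec.seq0 2 (2 + (2 + m * (18 + 2))) (fun σ' => σ' = σ.setReg (z + 2) 0) ?_ ?_).le
    (by omega)
  · exact Spec.set0 0 rfl rfl (fun _ => by omega) fun _ => rfl
  rintro σ1 - rfl
  refine (Spec.seq0 2 (2 + m * (18 + 2))
    (fun σ' => σ' = (σ.setReg (z + 2) 0).setReg (z + 3) v) ?_ ?_)
  · refine Spec.set0 v rfl ?_ (fun hb => ?_) fun _ => rfl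
    · simp [hv]
    · have := hb.reg z
      simp [hv] at this
      exact this
  rintro σ2 - rfl
  refine (Spec.loop0 (e := .reg (z + 1)) m 18 (fun i σ' => σ'.reg (z + 1) = m ∧
    σ'.reg (z + 2) = min i v.size ∧ σ'.reg (z + 3) = v / 2 ^ i ∧
    ∀ l, l < min i v.size → σ'.arr y l = (v.bits.getD l false).toNat) rfl ?_ (fun hb => ?_)
    (fun _ => ?_) ?_).mono ?_ ?_
  · simp [hm]
  · have := hb.reg (z + 1)
    simp [hm] at this
    exact this
  · refine ⟨by simp [hm], by simp, by simp, fun l hl => by simp at hl⟩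
  · rintro t ht σ' hb' - ⟨h1, h2, h3, h4⟩
    refine (Spec.ite0 (e := .reg (z + 3)) (c := 16) rfl (fun h0 => ?_) (fun h0 => ?_)).le
      (by simp [Expr.cost])
    · have h5 : v / 2 ^ t = 0 := by simpa [h3] using h0
      have h6 : v.size ≤ t := by
        rw [Nat.size_le]
        by_contra h7
        have h8 := Nat.div_pos (not_lt.mp h7) (Nat.pos_of_ne_zero (by positivity))
        omega
      refine (Spec.set0 0 rfl rfl (fun _ => by omega) fun _ => ⟨by simp [h1], ?_, ?_, ?_⟩).le
        (by simp [Expr.cost])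
      · simp [h2]; omega
      · simp only [State.setReg_reg]
        rw [if_neg (by omega), if_neg (by omega), h3, pow_succ, ← Nat.div_div_eq_div_mul, h5]
      · intro l hl
        simpa using h4 l (by omega)
    · have h5 : v / 2 ^ t ≠ 0 := by simpa [h3] using h0
      have h6 : t < v.size := by
        rw [← not_le, Nat.size_le, not_lt]
        by_contra h7
        exact h5 (Nat.div_eq_of_lt (not_le.mp h7))
      have h7 : σ'.reg (z + 2) = t := by rw [h2]; omega
      refine (Spec.seq0 5 8 (fun σ'' => σ'' = (σ'.setReg (z + 4) t).setArr y t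
        (v / 2 ^ t % 2)) ?_ ?_).le (by omega)
      · refine Spec.put1 t (v / 2 ^ t % 2) hy rfl rfl (by simp [Expr.cost, emod]) ?_ ?_
          (fun _ => ?_) fun _ => rfl
        · simp [h7]
        · simp [h3]
        · have := E.hR; omega
      rintro σ3 - rfl
      refine (Spec.seq0 4 4 (fun σ'' => σ'' = ((σ'.setReg (z + 4) t).setArr y t
        (v / 2 ^ t % 2)).setReg (z + 2) (t + 1)) ?_ ?_)
      · refine Spec.set0 (t + 1) rfl ?_ (fun hb => ?_) fun _ => rfl
        · simp [h7]
        · have := hb.reg (z + 1)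
          simp [h1] at this
          omega
      rintro σ4 - rfl
      refine Spec.set0 (v / 2 ^ (t + 1)) rfl ?_ (fun hb => ?_) fun _ => ⟨?_, ?_, ?_, ?_⟩
      · simp [h3, pow_succ, Nat.div_div_eq_div_mul]
      · have := hb.reg (z + 3)
        simp [h3] at this
        refine le_trans ?_ this
        rw [pow_succ, ← Nat.div_div_eq_div_mul]
        exact Nat.div_le_self _ _
      · simp [h1]
      · simp; omega
      · simp
      · intro l hl
        simp only [State.setReg_arr, State.setArr_arr, true_and]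
        split_ifs with hlt
        · subst hlt
          rw [← testBit_toNat, Vale.Agent.Lib.PolyTime.testBit_eq_getD_bits]
        · exact h4 l (by omega)
  · simp [Expr.cost]
  · rintro σ' ⟨h1, h2, h3, h4⟩
    rw [min_eq_right hvmS] at h2 h4
    exact ⟨by rw [h2, hsz], fun i hi => h4 i (by omega)⟩

theorem pushBits_spec {z y j k : ℕ} {v : Word} {w : Word} (hy : 2 ≤ y) (hj : 2 ≤ j)
    (hyj : y ≠ j) (hk : ∀ i, i ≤ 4 → k ≠ z + i) (σ : State)
    (h2 : σ.reg (z + 2) = v.length)
    (hv : ∀ i, i < v.length → σ.arr y i = (v.getD i false).toNat)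
    (hw : Holds σ j k (false :: w)) (hR : w.length + 2 * v.length + 1 ≤ E.R) :
    Spec E σ (pushBits z y j k) (19 * v.length + 2) (fun σ' => Holds σ' j k (pr v w)) := by
  refine (Spec.loop0 (e := .reg (z + 2)) v.length 17 (fun t σ' =>
    σ'.reg (z + 2) = v.length ∧ (∀ i, i < v.length → σ'.arr y i = (v.getD i false).toNat) ∧
    Holds σ' j k (pr (v.drop (v.length - t)) w)) rfl h2 (fun hb => ?_) (fun _ => ?_) ?_).mono
    ?_ ?_
  · have := hb.reg (z + 2)
    omega
  · refine ⟨h2, hv, ?_⟩
    simpa [pr] using hw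
  · rintro t ht σ' hb' - ⟨i1, i2, i3⟩
    have hk4 : k ≠ z + 4 := hk 4 le_rfl
    have i3' : Holds (σ'.setReg (z + 4) t) j k (pr (v.drop (v.length - t)) w) :=
      i3.congr (by rw [State.setReg_reg, if_neg hk4]) rfl
    set b := v.getD (v.length - 1 - t) false with hb
    set W := pr (v.drop (v.length - t)) w with hWdef
    have hdrop : v.drop (v.length - (t + 1)) = b :: v.drop (v.length - t) := by
      have hlt : v.length - (t + 1) < v.length := by omega
      rw [List.drop_eq_getElem_cons hlt]
      have e1 : v.length - (t + 1) + 1 = v.length - t := by omega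
      rw [e1, hb, List.getD_eq_getElem?_getD]
      have e2 : v.length - 1 - t = v.length - (t + 1) := by omega
      rw [e2, List.getElem?_eq_getElem hlt]
      rfl
    have hpr : pr (v.drop (v.length - (t + 1))) w = true :: b :: W := by
      rw [hdrop]; rfl
    have hWlen : W.length + 2 ≤ E.R := by
      rw [hWdef, Vale.Agent.Lib.PolyTime.length_pr, List.length_drop]
      omega
    have hlen := i3'.len
    have hbv : σ'.arr y (v.length - 1 - t) = b.toNat := i2 _ (by omega)
    refine (Spec.seq0 8 9 (fun σ'' => σ'' = (σ'.setReg (z + 4) t).setArr j W.length b.toNat)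
      ?_ ?_).le (by omega)
    · refine Spec.put1 W.length b.toNat hj rfl ?_ (by simp [Expr.cost, esub]) hlen ?_
        (fun _ => ?_) fun _ => rfl
      · simp [Expr.small, Expr.okb, Expr.cost, esub]; omega
      · simp [i1, hbv]
      · have := E.hR
        cases b <;> simp <;> omega
    rintro σ2 - rfl
    refine (Spec.seq0 5 4 (fun σ'' => σ'' = ((σ'.setReg (z + 4) t).setArr j W.length
      b.toNat).setArr j (W.length + 1) 1) ?_ ?_)
    · refine Spec.put1 (W.length + 1) 1 hj rfl rfl (by simp [Expr.cost, eadd]) ?_ rfl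
        (fun _ => ?_) fun _ => rfl
      · simpa using hlen
      · have := E.hR; omega
    rintro σ3 - rfl
    refine Spec.set0 (W.length + 2) rfl ?_ (fun _ => hWlen) fun _ => ⟨?_, ?_, ?_⟩
    · simpa using hlen
    · have := hk 2 (by omega)
      simp [i1, Ne.symm this]
    · intro i hi
      rw [State.setReg_arr, State.setArr_arr_ne _ _ _ hyj, State.setArr_arr_ne _ _ _ hyj,
        State.setReg_arr]
      exact i2 i hi
    · rw [hpr]
      have := (i3'.push b).push true
      refine ⟨by simp, fun m hm => ?_⟩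
      have h5 := this.val m hm
      simp only [State.setReg_arr, State.setArr_arr, true_and] at h5 ⊢
      simpa using h5
  · simp [Expr.cost]; omega
  · rintro σ' ⟨-, -, h⟩
    simpa using h

theorem splitBits_frame {z y : ℕ} : (∀ i ∈ (splitBits z y).wr, z + 2 ≤ i ∧ i ≤ z + 4) ∧
    ∀ i ∈ (splitBits z y).wa, i = y := by
  constructor
  · intro i hi
    simp [splitBits, Prog.wr] at hi
    omega
  · intro i hi
    simpa [splitBits, Prog.wa] using hi

theorem pushNat_spec {z y j k v m : ℕ} {w : Word} (hy : 2 ≤ y) (hj : 2 ≤ j) (hyj : y ≠ j)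
    (hk : ∀ i, i ≤ 4 → k ≠ z + i) (σ : State) (hv : σ.reg z = v) (hm : σ.reg (z + 1) = m)
    (hvm : v < 2 ^ m) (hw : Holds σ j k w) (hR : w.length + 2 * m + 1 ≤ E.R) :
    Spec E σ (pushNat z y j k) (41 * m + 20) (fun σ' => Holds σ' j k (pr v.bits w)) := by
  have hsz : v.bits.length ≤ m := by
    rw [Nat.size_eq_bits_len]; exact Nat.size_le.mpr hvm
  refine (Spec.seq0 (22 * m + 10) (3 + (4 + (19 * v.bits.length + 2))) _
    (splitBits_spec hy σ hv hm hvm) fun σ1 hfr1 h1 => ?_).le (by omega)
  have hreg1 : σ1.reg k = σ.reg k := hfr1.reg _ fun h => by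
    have h3 := splitBits_frame.1 _ h
    have h4 := hk 2 (by omega)
    have h5 := hk 3 (by omega)
    have h6 := hk 4 (by omega)
    omega
  have harr1 : σ1.arr j = σ.arr j := hfr1.arr _ fun h => hyj (splitBits_frame.2 _ h).symm
  have hw1 : Holds σ1 j k w := hw.congr hreg1 harr1
  have hlen := hw1.len
  refine Spec.seq0 3 (4 + (19 * v.bits.length + 2))
    (fun σ' => σ' = σ1.setArr j w.length 0) ?_ ?_
  · exact Spec.put0 w.length 0 hj rfl rfl hlen rfl (fun _ => by omega) fun _ => rfl
  rintro σ2 - rfl
  refine Spec.seq0 4 (19 * v.bits.length + 2)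
    (fun σ' => σ' = (σ1.setArr j w.length 0).setReg k (w.length + 1)) ?_ ?_
  · refine Spec.set0 (w.length + 1) rfl ?_ (fun _ => by omega) fun _ => rfl
    simpa using hlen
  rintro σ3 - rfl
  refine pushBits_spec hy hj hyj hk _ ?_ (fun i hi => ?_) (hw1.push false) (by omega)
  · have := hk 2 (by omega)
    rw [State.setReg_reg, if_neg (Ne.symm this)]
    exact h1.1
  · rw [State.setReg_arr, State.setArr_arr_ne _ _ _ hyj]
    exact h1.2 i hi

theorem readNat_spec {z j k v : ℕ} (hk : ∀ i, i ≤ 4 → k ≠ z + i) (hj : 2 ≤ j) (σ : State)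
    (hw : Holds σ j k v.bits) (hvR : v ≤ E.R) :
    Spec E σ (readNat z j k) (9 * v.bits.length + 4) (fun σ' => σ'.reg z = v) := by
  have hk0 : k ≠ z := hk 0 (by omega)
  refine (Spec.seq0 2 (2 + v.bits.length * (7 + 2)) (fun σ' => σ' = σ.setReg z 0) ?_ ?_).le
    (by omega)
  · exact Spec.set0 0 rfl rfl (fun _ => by omega) fun _ => rfl
  rintro σ1 - rfl
  refine (Spec.loop0 (e := .reg k) v.bits.length 7 (fun t σ' =>
    σ'.reg z = v / 2 ^ (v.bits.length - t) ∧ σ'.arr j = σ.arr j) rfl ?_ (fun hb => ?_)
    (fun _ => ?_) ?_).mono (by simp [Expr.cost]) ?_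
  · simpa [hk0] using hw.len
  · have := hb.reg k
    rw [State.setReg_reg, if_neg hk0, hw.len] at this
    exact this
  · refine ⟨?_, rfl⟩
    simp only [State.setReg_reg, if_true, Nat.sub_zero]
    rw [Nat.div_eq_of_lt]
    rw [Nat.size_eq_bits_len]
    exact Nat.lt_size_self v
  · rintro t ht σ' hb' - ⟨i1, i2⟩
    have hval := hw.val t ht
    have e1 : (v.bits.reverse.getD t false) = v.bits.getD (v.bits.length - (t + 1)) false := by
      rw [List.getD_eq_getElem?_getD, List.getD_eq_getElem?_getD,
        List.getElem?_reverse (by simpa using ht)]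
      congr 2
      omega
    rw [e1, ← Vale.Agent.Lib.PolyTime.testBit_eq_getD_bits, testBit_toNat] at hval
    have e2 : v / 2 ^ (v.bits.length - (t + 1)) =
        2 * (v / 2 ^ (v.bits.length - t)) + v / 2 ^ (v.bits.length - (t + 1)) % 2 := by
      have e3 : v.bits.length - t = (v.bits.length - (t + 1)) + 1 := by omega
      rw [e3, pow_succ, ← Nat.div_div_eq_div_mul]
      omega
    refine Spec.set1 (v / 2 ^ (v.bits.length - (t + 1))) ?_ (by simp [Expr.cost, eadd, emul])
      ?_ (fun _ => (Nat.div_le_self _ _).trans hvR) fun _ => ⟨by simp, i2⟩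
    · simp [Expr.small, Expr.okb, Expr.cost, eadd, emul]; omega
    · simp only [eadd_eval, emul_eval, lit_eval, reg_eval, get_eval, State.setReg_reg,
        State.setReg_arr, if_true]
      rw [if_neg (by omega), i1, i2, hval, ← e2]
  · rintro σ' ⟨h1, -⟩
    simpa using h1

end Vale.Agent.P315.RAM
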