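import Vale.Agent.P315.DP
import Vale.Agent.Lib.PolyTime.Typed

/-!
# Polynomial time functions on the word RAM

The stack machines of the polynomial time library are simulated on the word RAM: every stack is an
array together with a register that holds its height.
-/

set_option autoImplicit false

namespace Vale.Agent.P315.RAM

open Vale.Agent.Lib.PolyTime (Word pb pr FP PT Enc enc esize)

/-- Programs of the stack machine. -/
abbrev SProg := Vale.Agent.Lib.PolyTime.Prog

/-- Executions of the stack machine (without oracle). -/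
abbrev SEval := Vale.Agent.Lib.PolyTime.Eval (∅ : Set Word)

/-- A layout: stack `i` is kept in array `a + i`, its height in register `r + i`; register `B`
holds a bound for the number of steps, register `c` is a scratch register. -/
structure Lay where
  a : ℕ
  r : ℕ
  B : ℕ
  c : ℕ

/-- Admissible layouts. -/
structure Lay.Ok (L : Lay) : Prop where
  a : 2 ≤ L.a
  B : L.B < L.r
  c : L.c < L.r
  Bc : L.B ≠ L.c

/-- The translation of stack programs. -/
def tr (L : Lay) : SProg → Prog
  | .skip => .set L.c (.lit 0)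
  | .push i b => .seq (.put (L.a + i) (.reg (L.r + i)) (.lit b.toNat))
      (.set (L.r + i) (eadd (.reg (L.r + i)) (.lit 1)))
  | .pop i => .set (L.r + i) (esub (.reg (L.r + i)) (.lit 1))
  | .query _ j => .seq (.put (L.a + j) (.reg (L.r + j)) (.lit 0))
      (.set (L.r + j) (eadd (.reg (L.r + j)) (.lit 1)))
  | .seq p q => .seq (tr L p) (tr L q)
  | .ite i p q r => .ite (.reg (L.r + i))
      (.ite (.get (L.a + i) (esub (.reg (L.r + i)) (.lit 1))) (tr L r) (tr L q)) (tr L p)
  | .loop i p => .loop L.c (.reg L.B) (.ite (.reg (L.r + i)) (tr L p) (.set L.c (.lit 0)))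

/-- The stack program uses only stacks below `W`. -/
def below (W : ℕ) : SProg → Prop
  | .skip => True
  | .push i _ => i < W
  | .pop i => i < W
  | .query i j => i < W ∧ j < W
  | .seq p q => below W p ∧ below W q
  | .ite i p q r => i < W ∧ below W p ∧ below W q ∧ below W r
  | .loop i p => i < W ∧ below W p

theorem below.mono {W W' : ℕ} (h : W ≤ W') (p : SProg) (hp : below W p) : below W' p := by
  induction p with
  | skip => trivial
  | push i b => exact lt_of_lt_of_le hp h
  | pop i => exact lt_of_lt_of_le hp h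
  | query i j => exact ⟨lt_of_lt_of_le hp.1 h, lt_of_lt_of_le hp.2 h⟩
  | seq p q ihp ihq => exact ⟨ihp hp.1, ihq hp.2⟩
  | ite i p q r ihp ihq ihr =>
    exact ⟨lt_of_lt_of_le hp.1 h, ihp hp.2.1, ihq hp.2.2.1, ihr hp.2.2.2⟩
  | loop i p ih => exact ⟨lt_of_lt_of_le hp.1 h, ih hp.2⟩

theorem exists_below (p : SProg) : ∃ W, below W p := by
  induction p with
  | skip => exact ⟨0, trivial⟩
  | push i b => exact ⟨i + 1, Nat.lt_succ_self i⟩
  | pop i => exact ⟨i + 1, Nat.lt_succ_self i⟩
  | query i j => exact ⟨i + j + 1, by constructor <;> omega⟩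
  | seq p q ihp ihq =>
    obtain ⟨W, hW⟩ := ihp
    obtain ⟨W', hW'⟩ := ihq
    exact ⟨max W W', hW.mono (le_max_left _ _), hW'.mono (le_max_right _ _)⟩
  | ite i p q r ihp ihq ihr =>
    obtain ⟨W, hW⟩ := ihp
    obtain ⟨W', hW'⟩ := ihq
    obtain ⟨W'', hW''⟩ := ihr
    exact ⟨i + 1 + W + W' + W'', by omega, hW.mono (by omega), hW'.mono (by omega),
      hW''.mono (by omega)⟩
  | loop i p ih =>
    obtain ⟨W, hW⟩ := ih
    exact ⟨i + 1 + W, by omega, hW.mono (by omega)⟩

/-- In state `σ`, array `j` and register `k` hold the word `w` (as a stack). -/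
structure Holds (σ : State) (j k : ℕ) (w : Word) : Prop where
  len : σ.reg k = w.length
  val : ∀ m, m < w.length → σ.arr j m = (w.reverse.getD m false).toNat

theorem Holds.congr {σ σ' : State} {j k : ℕ} {w : Word} (h : Holds σ j k w)
    (hr : σ'.reg k = σ.reg k) (ha : σ'.arr j = σ.arr j) : Holds σ' j k w :=
  ⟨by rw [hr, h.len], fun m hm => by rw [ha]; exact h.val m hm⟩

/-- The stacks below `W` are as in `s`. -/
def Rel (W : ℕ) (L : Lay) (s : ℕ → Word) (σ : State) : Prop :=
  ∀ i, i < W → Holds σ (L.a + i) (L.r + i) (s i)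

/-- Number of steps of the translated program. -/
def cst (Bd : ℕ) : SProg → ℕ
  | .skip => 2
  | .push _ _ => 7
  | .pop _ => 4
  | .query _ _ => 7
  | .seq p q => cst Bd p + cst Bd q
  | .ite _ p q r => 8 + (cst Bd p + cst Bd q + cst Bd r)
  | .loop _ p => 2 + Bd * (cst Bd p + 4 + 2)

theorem one_le_cst (Bd : ℕ) (p : SProg) : 1 ≤ cst Bd p := by
  induction p with
  | skip => simp [cst]
  | push i b => simp [cst]
  | pop i => simp [cst]
  | query i j => simp [cst]
  | seq p q ihp ihq => simp [cst]; omega
  | ite i p q r ihp ihq ihr => simp [cst]; omega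
  | loop i p ih => simp [cst]; omega

theorem cst_le (p : SProg) : ∃ k, ∀ Bd, cst Bd p ≤ (Bd + 2) ^ k := by
  have key : ∀ f g : ℕ → ℕ, Vale.Agent.Lib.PolyTime.PB f → (∀ n, g n ≤ f n) →
      ∃ k, ∀ n, g n ≤ (n + 2) ^ k := fun f g hf h => by
    obtain ⟨k, hk⟩ := hf.mono h
    exact ⟨k, hk⟩
  have h : Vale.Agent.Lib.PolyTime.PB (fun Bd => cst Bd p) := by
    induction p with
    | skip => exact Vale.Agent.Lib.PolyTime.PB.const 2
    | push i b => exact Vale.Agent.Lib.PolyTime.PB.const 7
    | pop i => exact Vale.Agent.Lib.PolyTime.PB.const 4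
    | query i j => exact Vale.Agent.Lib.PolyTime.PB.const 7
    | seq p q ihp ihq => exact ihp.add ihq
    | ite i p q r ihp ihq ihr =>
      exact (Vale.Agent.Lib.PolyTime.PB.const 8).add ((ihp.add ihq).add ihr)
    | loop i p ih =>
      exact (Vale.Agent.Lib.PolyTime.PB.const 2).add
        (Vale.Agent.Lib.PolyTime.PB.id.mul ((ih.add (Vale.Agent.Lib.PolyTime.PB.const 4)).add
          (Vale.Agent.Lib.PolyTime.PB.const 2)))
  exact h

theorem tr_wr (L : Lay) (W : ℕ) (p : SProg) (hp : below W p) :
    ∀ k ∈ (tr L p).wr, k = L.c ∨ (L.r ≤ k ∧ k < L.r + W) := by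
  induction p with
  | skip => intro k hk; left; simpa [tr, Prog.wr] using hk
  | push i b =>
    intro k hk
    right
    have : k = L.r + i := by simpa [tr, Prog.wr] using hk
    have h2 : i < W := hp
    omega
  | pop i =>
    intro k hk
    right
    have : k = L.r + i := by simpa [tr, Prog.wr] using hk
    have h2 : i < W := hp
    omega
  | query i j =>
    intro k hk
    right
    have : k = L.r + j := by simpa [tr, Prog.wr] using hk
    have h2 : j < W := hp.2
    omega
  | seq p q ihp ihq =>
    intro k hk
    simp only [tr, Prog.wr, List.mem_append] at hk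
    rcases hk with hk | hk
    · exact ihp hp.1 k hk
    · exact ihq hp.2 k hk
  | ite i p q r ihp ihq ihr =>
    intro k hk
    simp only [tr, Prog.wr, List.mem_append] at hk
    rcases hk with (hk | hk) | hk
    · exact ihr hp.2.2.2 k hk
    · exact ihq hp.2.2.1 k hk
    · exact ihp hp.2.1 k hk
  | loop i p ih =>
    intro k hk
    simp only [tr, Prog.wr, List.mem_append, List.mem_cons, List.not_mem_nil, or_false] at hk
    rcases hk with hk | hk | hk
    · exact Or.inl hk
    · exact ih hp.2 k hk
    · exact Or.inl hk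

theorem tr_wa (L : Lay) (W : ℕ) (p : SProg) (hp : below W p) :
    ∀ k ∈ (tr L p).wa, L.a ≤ k ∧ k < L.a + W := by
  induction p with
  | skip => intro k hk; simp [tr, Prog.wa] at hk
  | push i b =>
    intro k hk
    have : k = L.a + i := by simpa [tr, Prog.wa] using hk
    have h2 : i < W := hp
    omega
  | pop i => intro k hk; simp [tr, Prog.wa] at hk
  | query i j =>
    intro k hk
    have : k = L.a + j := by simpa [tr, Prog.wa] using hk
    have h2 : j < W := hp.2
    omega
  | seq p q ihp ihq =>
    intro k hk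
    simp only [tr, Prog.wa, List.mem_append] at hk
    rcases hk with hk | hk
    · exact ihp hp.1 k hk
    · exact ihq hp.2 k hk
  | ite i p q r ihp ihq ihr =>
    intro k hk
    simp only [tr, Prog.wa, List.mem_append] at hk
    rcases hk with (hk | hk) | hk
    · exact ihr hp.2.2.2 k hk
    · exact ihq hp.2.2.1 k hk
    · exact ihp hp.2.1 k hk
  | loop i p ih =>
    intro k hk
    simp only [tr, Prog.wa, List.mem_append, List.not_mem_nil, or_false] at hk
    exact ih hp.2 k hk

/-! ### Rules without the split of the budget -/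

variable {E : Env}

theorem Spec.seq0 {s : State} {p q : Prog} {Q' : State → Prop} (c₁ c₂ : ℕ) (Q : State → Prop)
    (h : Spec E s p c₁ Q) (h' : ∀ s', Frame s s' p.wr p.wa → Q s' → Spec E s' q c₂ Q') :
    Spec E s (.seq p q) (c₁ + c₂) Q' := by
  intro hb
  obtain ⟨h1, h2, h3, h4⟩ := h hb
  obtain ⟨g1, g2, g3, g4⟩ := h' _ (p.frame E.ρ s) h1 h2
  exact ⟨g1, g2, Nat.add_le_add h3 g3, max_lt h4 g4⟩

theorem Spec.set0 {s : State} {i : ℕ} {e : Expr} {Q : State → Prop} (v : ℕ)
    (hs : e.small = true) (hv : e.eval s = v) (hvR : Bdd E s → v ≤ E.R)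
    (hQ : Bdd E s → Q (s.setReg i v)) : Spec E s (.set i e) (e.cost + 1) Q := by
  intro hb
  subst hv
  exact ⟨hQ hb, hb.setReg i (hvR hb), le_rfl, Expr.top_lt_small hb e hs⟩

theorem Spec.put0 {s : State} {j : ℕ} {e e' : Expr} {Q : State → Prop} (u v : ℕ)
    (hj : 2 ≤ j) (hs : e.small = true) (hs' : e'.small = true) (hu : e.eval s = u)
    (hv : e'.eval s = v) (hvR : Bdd E s → v ≤ E.R) (hQ : Bdd E s → Q (s.setArr j u v)) :
    Spec E s (.put j e e') (e.cost + e'.cost + 1) Q := by
  intro hb
  subst hv
  subst hu
  exact ⟨hQ hb, hb.setArr hj _ (hvR hb), le_rfl,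
    max_lt (Expr.top_lt_small hb e hs) (Expr.top_lt_small hb e' hs')⟩

theorem Spec.ite0 {s : State} {e : Expr} {p q : Prog} {c : ℕ} {Q : State → Prop}
    (hs : e.small = true) (h0 : e.eval s = 0 → Spec E s q c Q)
    (h1 : e.eval s ≠ 0 → Spec E s p c Q) : Spec E s (.ite e p q) (e.cost + 1 + c) Q := by
  intro hb
  have t1 := Expr.top_lt_small hb e hs
  by_cases h : e.eval s = 0
  · obtain ⟨g1, g2, g3, g4⟩ := h0 h hb
    simp only [Prog.run, Prog.time, Prog.top, h, if_true]
    exact ⟨g1, g2, by omega, max_lt t1 g4⟩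
  · obtain ⟨g1, g2, g3, g4⟩ := h1 h hb
    simp only [Prog.run, Prog.time, Prog.top, h, if_false]
    exact ⟨g1, g2, by omega, max_lt t1 g4⟩

theorem Spec.loop0 {s : State} {i : ℕ} {e : Expr} {p : Prog} (n c : ℕ) (I : ℕ → State → Prop)
    (hs : e.small = true) (hn : e.eval s = n) (hnR : Bdd E s → n ≤ E.R) (h0 : Bdd E s → I 0 s)
    (hstep : ∀ t, t < n → ∀ s', Bdd E s' → Frame s s' (i :: p.wr) p.wa → I t s' →
      Spec E (s'.setReg i t) p c (I (t + 1))) :
    Spec E s (.loop i e p) (e.cost + 1 + n * (c + 2)) (I n) :=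
  Spec.loop n c I hs le_rfl le_rfl hn hnR h0 hstep

/-! ### The simulation -/

theorem reverse_getD_cons (b : Bool) (w : Word) (m : ℕ) :
    ((b :: w).reverse.getD m false) = if m = w.length then b else w.reverse.getD m false := by
  rw [List.reverse_cons, List.getD_eq_getElem?_getD, List.getD_eq_getElem?_getD]
  split_ifs with h
  · rw [List.getElem?_append_right (by simp [h])]
    simp [h]
  · by_cases h2 : m < w.length
    · rw [List.getElem?_append_left (by simpa using h2)]
    · rw [List.getElem?_eq_none (by simp; omega), List.getElem?_eq_none (by simp; omega)]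

theorem Holds.push {σ : State} {j k : ℕ} {w : Word} (h : Holds σ j k w) (b : Bool) :
    Holds ((σ.setArr j (w.length) b.toNat).setReg k (w.length + 1)) j k (b :: w) := by
  refine ⟨by simp, fun m hm => ?_⟩
  simp only [State.setReg_arr, State.setArr_arr, true_and]
  rw [reverse_getD_cons]
  split_ifs with h1
  · rfl
  · exact h.val m (by simp at hm; omega)

theorem Holds.pop {σ : State} {j k : ℕ} {w : Word} (h : Holds σ j k w) :
    Holds (σ.setReg k (w.length - 1)) j k w.tail := by
  cases w with
  | nil => exact ⟨by simp, fun m hm => by simp at hm⟩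
  | cons b w =>
    refine ⟨by simp, fun m hm => ?_⟩
    have hm' : m < w.length := by simpa using hm
    have h1 := h.val m (by simp; omega)
    rw [reverse_getD_cons, if_neg (by omega)] at h1
    simpa using h1

theorem Holds.top {σ : State} {j k : ℕ} {b : Bool} {w : Word} (h : Holds σ j k (b :: w)) :
    σ.arr j (σ.reg k - 1) = b.toNat := by
  rw [h.len]
  have := h.val w.length (by simp)
  rw [reverse_getD_cons, if_pos rfl] at this
  simpa using this

theorem Rel.push {W : ℕ} {L : Lay} {s : ℕ → Word} {σ : State} (h : Rel W L s σ)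
    {i : ℕ} (hi : i < W) (b : Bool) :
    Rel W L (Function.update s i (b :: s i))
      ((σ.setArr (L.a + i) (s i).length b.toNat).setReg (L.r + i) ((s i).length + 1)) := by
  intro j hj
  by_cases hji : j = i
  · subst hji
    rw [Function.update_self]
    exact (h j hj).push b
  · rw [Function.update_of_ne hji]
    refine (h j hj).congr ?_ ?_
    · rw [State.setReg_reg, if_neg (by omega)]
      simp
    · rw [State.setReg_arr, State.setArr_arr_ne _ _ _ (by omega)]

theorem Rel.pop {W : ℕ} {L : Lay} {s : ℕ → Word} {σ : State} (h : Rel W L s σ)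
    {i : ℕ} (hi : i < W) :
    Rel W L (Function.update s i (s i).tail) (σ.setReg (L.r + i) ((s i).length - 1)) := by
  intro j hj
  by_cases hji : j = i
  · subst hji
    rw [Function.update_self]
    exact (h j hj).pop
  · rw [Function.update_of_ne hji]
    refine (h j hj).congr ?_ ?_
    · rw [State.setReg_reg, if_neg (by omega)]
    · rw [State.setReg_arr]

theorem Rel.scratch {W : ℕ} {L : Lay} (hL : L.Ok) {s : ℕ → Word} {σ : State} (h : Rel W L s σ)
    (v : ℕ) : Rel W L s (σ.setReg L.c v) := by
  intro j hj
  refine (h j hj).congr ?_ (by rw [State.setReg_arr])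
  have := hL.c
  rw [State.setReg_reg, if_neg (by omega)]

/-- The run of a loop of the stack machine as a sequence. -/
theorem loop_seq {A : Set Word} {i : ℕ} {p : SProg} {q : SProg} {s s' : ℕ → Word} {t : ℕ}
    (h : Vale.Agent.Lib.PolyTime.Eval A q s t s') (hq : q = .loop i p) :
    ∃ (K : ℕ) (u : ℕ → ℕ → Word) (τ : ℕ → ℕ), K < t ∧ u 0 = s ∧ (∀ k, K ≤ k → u k = s') ∧
      s' i = [] ∧ (∀ k, k < K → u k i ≠ [] ∧
        Vale.Agent.Lib.PolyTime.Eval A p (u k) (τ k) (u (k + 1))) ∧
      ∑ k ∈ Finset.range K, τ k ≤ t := by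
  induction h with
  | loop_stop h0 =>
    cases hq
    exact ⟨0, fun _ => _, fun _ => 0, by omega, rfl, fun _ _ => rfl, h0,
      fun k hk => absurd hk (Nat.not_lt_zero k), by simp⟩
  | loop_step h0 h1 h2 _ ih =>
    cases hq
    obtain ⟨K, u, τ, hK, hu0, huK, hs, hst, hτ⟩ := ih rfl
    rename_i s s1 s2 t1 t2 _
    refine ⟨K + 1, fun k => if k = 0 then s else u (k - 1), fun k => if k = 0 then t1 else
      τ (k - 1), by omega, by simp, fun k hk => ?_, hs, fun k hk => ?_, ?_⟩
    · simp only [if_neg (show k ≠ 0 by omega)]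
      exact huK _ (by omega)
    · by_cases hk0 : k = 0
      · subst hk0
        simp only [if_true, Nat.zero_add, Nat.one_ne_zero, if_false, Nat.sub_self]
        rw [hu0]
        exact ⟨h0, h1⟩
      · simp only [if_neg hk0, if_neg (Nat.succ_ne_zero k), Nat.add_sub_cancel]
        have := hst (k - 1) (by omega)
        rwa [Nat.sub_add_cancel (by omega)] at this
    · rw [Finset.sum_range_succ']
      simp only [Nat.succ_ne_zero, if_false, Nat.add_sub_cancel, if_true]
      omega
  | _ => cases hq

theorem sim {L : Lay} (hL : L.Ok) {W Bd : ℕ} (hBd : Bd ≤ E.R) (p : SProg) (hp : below W p) :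
    ∀ (s : ℕ → Word) (t : ℕ) (s' : ℕ → Word), SEval p s t s' → ∀ σ : State, Rel W L s σ →
      σ.reg L.B = Bd → t ≤ Bd → (∀ i, i < W → (s i).length + t ≤ E.R) →
      Spec E σ (tr L p) (cst Bd p) (Rel W L s') := by
  induction p with
  | skip =>
    intro s t s' h σ hσ hB ht hlen
    cases h
    exact (Spec.set0 0 rfl rfl (fun _ => by omega) fun _ => hσ.scratch hL 0).le le_rfl
  | push i b =>
    intro s t s' h σ hσ hB ht hlen
    cases h
    have hi : i < W := hp
    have h1 := (hσ i hi).len
    have hl := hlen i hi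
    refine (Spec.seq0 3 4 (fun σ' => σ' = σ.setArr (L.a + i) (s i).length b.toNat) ?_ ?_).le
      (by simp [cst])
    · refine Spec.put0 (s i).length b.toNat (by have := hL.a; omega) rfl ?_ h1 rfl
        (fun _ => ?_) fun _ => rfl
      · cases b <;> rfl
      · have := E.hR
        cases b <;> simp <;> omega
    · rintro σ' - rfl
      refine Spec.set0 ((s i).length + 1) rfl ?_ (fun _ => by omega) fun _ => hσ.push hi b
      simp [h1]
  | pop i =>
    intro s t s' h σ hσ hB ht hlen
    cases h
    have hi : i < W := hp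
    have h1 := (hσ i hi).len
    have hl := hlen i hi
    refine (Spec.set0 ((s i).length - 1) rfl ?_ (fun _ => by omega) fun _ => hσ.pop hi).le
      (by simp [cst, esub, Expr.cost])
    simp [h1]
  | query i j =>
    intro s t s' h σ hσ hB ht hlen
    have hj : j < W := hp.2
    have h1 := (hσ j hj).len
    have hl := hlen j hj
    have hs' : s' = Function.update s j (false :: s j) := by
      cases h with
      | query_yes _ _ _ h => exact absurd h (Set.notMem_empty _)
      | query_no => rfl
    have ht1 : t = 1 := by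
      cases h with
      | query_yes _ _ _ h => rfl
      | query_no => rfl
    subst hs'
    refine (Spec.seq0 3 4 (fun σ' => σ' = σ.setArr (L.a + j) (s j).length 0) ?_ ?_).le
      (by simp [cst])
    · exact Spec.put0 (s j).length 0 (by have := hL.a; omega) rfl rfl h1 rfl
        (fun _ => by omega) fun _ => rfl
    · rintro σ' - rfl
      refine Spec.set0 ((s j).length + 1) rfl ?_ (fun _ => by omega) fun _ => hσ.push hj false
      simp [h1]
  | seq p q ihp ihq =>
    intro s t s' h σ hσ hB ht hlen
    cases h with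
    | @seq _ _ _ s1 _ t1 t2 h1 h2 =>
    refine Spec.seq0 _ _ _ (ihp hp.1 _ _ _ h1 σ hσ hB (by omega) fun i hi => ?_)
      fun σ' hfr hσ' => ihq hp.2 _ _ _ h2 σ' hσ' ?_ (by omega) fun i hi => ?_
    · have := hlen i hi; omega
    · rw [hfr.reg L.B, hB]
      intro hk
      have h3 := tr_wr L W p hp.1 _ hk
      have := hL.B
      have := hL.Bc
      omega
    · have := hlen i hi
      have h4 := h1.length_le i
      omega
  | ite i p q r ihp ihq ihr =>
    intro s t s' h σ hσ hB ht hlen
    have hi : i < W := hp.1
    have h1 := (hσ i hi).len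
    have e1 : (Expr.reg (L.r + i)).cost + 1 = 2 := rfl
    have e2 : (Expr.get (L.a + i) (esub (.reg (L.r + i)) (.lit 1))).cost + 1 = 5 := rfl
    have hsm : (Expr.get (L.a + i) (esub (.reg (L.r + i)) (.lit 1))).small = true := by
      have := hL.a
      simp [Expr.small, Expr.okb, Expr.cost, esub]; omega
    cases h with
    | ite_nil h0 h2 =>
      refine (Spec.ite0 (c := cst Bd p) (s := σ) rfl (fun _ => ihp hp.2.1 _ _ _ h2 σ hσ hB
        (by omega) fun j hj => ?_) (fun hne => absurd ?_ hne)).le (by simp [cst]; omega)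
      · have := hlen j hj; omega
      · simp [h1, h0]
    | ite_false h0 h2 =>
      obtain ⟨w, hw⟩ : ∃ w, s i = false :: w := by
        cases hsi : s i with
        | nil => simp [hsi] at h0
        | cons b w => simp [hsi] at h0; exact ⟨w, by rw [h0]⟩
      refine (Spec.ite0 (c := 5 + cst Bd q) (s := σ) rfl (fun h3 => absurd h3 ?_)
        (fun _ => ?_)).le (by simp [cst]; omega)
      · simp [h1, hw]
      · refine Spec.ite0 (c := cst Bd q) hsm (fun _ => ihq hp.2.2.1 _ _ _ h2 σ hσ hB
          (by omega) fun j hj => ?_) (fun hne => absurd ?_ hne)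
        · have := hlen j hj; omega
        · have := (hw ▸ hσ i hi).top
          simpa using this
    | ite_true h0 h2 =>
      obtain ⟨w, hw⟩ : ∃ w, s i = true :: w := by
        cases hsi : s i with
        | nil => simp [hsi] at h0
        | cons b w => simp [hsi] at h0; exact ⟨w, by rw [h0]⟩
      refine (Spec.ite0 (c := 5 + cst Bd r) (s := σ) rfl (fun h3 => absurd h3 ?_)
        (fun _ => ?_)).le (by simp [cst]; omega)
      · simp [h1, hw]
      · refine Spec.ite0 (c := cst Bd r) hsm (fun h3 => absurd h3 ?_)
          (fun _ => ihr hp.2.2.2 _ _ _ h2 σ hσ hB (by omega) fun j hj => ?_)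
        · have := (hw ▸ hσ i hi).top
          simp at this ⊢
          omega
        · have := hlen j hj; omega
  | loop i p ih =>
    intro s t s' h σ hσ hB ht hlen
    have hi : i < W := hp.1
    obtain ⟨K, u, τ, hK, hu0, huK, hs, hst, hτ⟩ := loop_seq h rfl
    have hlenu : ∀ k, k ≤ K → ∀ j, (u k j).length ≤
        (s j).length + ∑ m ∈ Finset.range k, τ m := by
      intro k
      induction k with
      | zero => intro _ j; rw [hu0]; simp
      | succ k ihk =>
        intro hk j
        have h1 := ihk (by omega) j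
        have h2 := (hst k (by omega)).2.length_le j
        rw [Finset.sum_range_succ]
        omega
    refine (Spec.loop0 (s := σ) (e := .reg L.B) Bd (cst Bd p + 4)
      (fun k σ' => Rel W L (u k) σ') rfl hB
      (fun _ => hBd) (fun _ => by rw [hu0]; exact hσ) ?_).mono ?_ ?_
    · intro k hk σ' hb' hfr hσ'
      have hσ'' := hσ'.scratch hL k
      have h1 := (hσ'' i hi).len
      have hB' : (σ'.setReg L.c k).reg L.B = Bd := by
        rw [State.setReg_reg, if_neg hL.Bc, hfr.reg L.B, hB]
        intro hk2
        simp only [Prog.wr, List.mem_cons, List.mem_append, List.not_mem_nil, or_false] at hk2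
        have hh1 := hL.B
        have hh2 := hL.Bc
        rcases hk2 with hk2 | hk2 | hk2
        · exact hh2 hk2
        · have := tr_wr L W p hp.2 _ hk2
          omega
        · exact hh2 hk2
      refine (Spec.ite0 (c := cst Bd p + 1) (e := .reg (L.r + i)) rfl (fun h0 => ?_)
        (fun h0 => ?_)).le (by simp [Expr.cost]; omega)
      · have hui : u k i = [] := by
          have : (u k i).length = 0 := by rw [← h1]; simpa using h0
          exact List.eq_nil_of_length_eq_zero this
        have hKk : K ≤ k := by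
          by_contra hlt
          exact (hst k (by omega)).1 hui
        have e3 : u (k + 1) = u k := by rw [huK _ hKk, huK _ (by omega)]
        rw [e3]
        refine (Spec.set0 0 rfl rfl (fun _ => by omega) fun _ => hσ''.scratch hL 0).le ?_
        have := one_le_cst Bd p
        simp [Expr.cost]; omega
      · have hui : u k i ≠ [] := by
          intro h2
          apply h0
          show (σ'.setReg L.c k).reg (L.r + i) = 0
          rw [h1, h2]
          rfl
        have hkK : k < K := by
          by_contra hge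
          exact hui (by rw [huK k (by omega)]; exact hs)
        have h3 := (hst k hkK).2
        have h4 : τ k ≤ ∑ m ∈ Finset.range K, τ m :=
          Finset.single_le_sum (f := τ) (fun _ _ => Nat.zero_le _) (Finset.mem_range.mpr hkK)
        refine (ih hp.2 _ _ _ h3 _ hσ'' hB' (by omega) fun j hj => ?_).le (by omega)
        have h5 := hlenu k hkK.le j
        have h6 : ∑ m ∈ Finset.range (k + 1), τ m ≤ ∑ m ∈ Finset.range K, τ m :=
          Finset.sum_le_sum_of_subset (Finset.range_mono hkK)
        rw [Finset.sum_range_succ] at h6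
        have := hlen j hj
        omega
    · simp only [cst, Expr.cost]; omega
    · intro σ' hσ'
      have : u Bd = s' := huK _ (by omega)
      rwa [this] at hσ'

end Vale.Agent.P315.RAM
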